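import Mathlib

/-!
Poisson factorisation for grand-canonical partition functions of one-body + pair weights.

`wt w ψ x = (∏ i, w (x i)) * ∏ i, ∏ j, (if i = j then 1 else ψ (x i) (x j))` is the weight of a
finite labelled configuration `x : ι → E` (ordered pairs `i ≠ j`: for a symmetric pair potential
`φ` use `ψ = exp (-φ/2)`), `Zι` its integral against the product measure, `Zc N` the case
`ι = Fin N`, and `Xi = ∑' N, (N !)⁻¹ * Zc N`.

Main results: `Zι_congr` (relabelling), `Zc_union` (binomial splitting over two disjoint regions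
across which the pair weight is `1`), `Xi_union`, `Xi_biUnion` (factorisation).
-/

namespace Vale.Agent.H27.PF

open MeasureTheory Finset
open scoped ENNReal BigOperators Nat

variable {E : Type*} [MeasurableSpace E]

/-- The weight of a finite labelled configuration: a one-body factor for every particle and a
pair factor for every ordered pair of distinct particles. -/
noncomputable def wt (w : E → ℝ≥0∞) (ψ : E → E → ℝ≥0∞) {ι : Type*} [Fintype ι] [DecidableEq ι]
    (x : ι → E) : ℝ≥0∞ :=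
  (∏ i, w (x i)) * ∏ i, ∏ j, if i = j then 1 else ψ (x i) (x j)

/-- The canonical partition function over a finite index type. -/
noncomputable def Zι (ν : Measure E) (w : E → ℝ≥0∞) (ψ : E → E → ℝ≥0∞) (ι : Type*) [Fintype ι]
    [DecidableEq ι] : ℝ≥0∞ :=
  ∫⁻ x : ι → E, wt w ψ x ∂(Measure.pi fun _ : ι => ν)

/-- The canonical partition function of `N` labelled particles. -/
noncomputable def Zc (ν : Measure E) (w : E → ℝ≥0∞) (ψ : E → E → ℝ≥0∞) (N : ℕ) : ℝ≥0∞ :=
  Zι ν w ψ (Fin N)

/-- The grand-canonical partition function. -/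
noncomputable def Xi (ν : Measure E) (w : E → ℝ≥0∞) (ψ : E → E → ℝ≥0∞) : ℝ≥0∞ :=
  ∑' N : ℕ, ((N ! : ℕ) : ℝ≥0∞)⁻¹ * Zc ν w ψ N

theorem measurable_wt {w : E → ℝ≥0∞} {ψ : E → E → ℝ≥0∞} (hw : Measurable w)
    (hψ : Measurable (Function.uncurry ψ)) (ι : Type*) [Fintype ι] [DecidableEq ι] :
    Measurable (fun x : ι → E => wt w ψ x) := by
  unfold wt
  refine Measurable.mul ?_ ?_
  · exact Finset.measurable_prod _ (fun i _ => hw.comp (measurable_pi_apply i))
  · refine Finset.measurable_prod _ (fun i _ => Finset.measurable_prod _ (fun j _ => ?_))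
    by_cases hij : i = j
    · simp [hij]
    · simp only [hij, if_false]
      have h2 : Measurable (fun x : ι → E => (x i, x j)) :=
        (measurable_pi_apply i).prodMk (measurable_pi_apply j)
      exact hψ.comp h2

omit [MeasurableSpace E] in
theorem wt_comp_equiv (w : E → ℝ≥0∞) (ψ : E → E → ℝ≥0∞) {ι ι' : Type*} [Fintype ι]
    [DecidableEq ι] [Fintype ι'] [DecidableEq ι'] (e : ι ≃ ι') (x : ι' → E) :
    wt w ψ (fun i => x (e i)) = wt w ψ x := by
  unfold wt
  congr 1
  · exact Fintype.prod_equiv e _ _ (fun i => rfl)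
  · refine Fintype.prod_equiv e _ _ (fun i => ?_)
    refine Fintype.prod_equiv e _ _ (fun j => ?_)
    simp [e.apply_eq_iff_eq]

/-- Relabelling: the canonical partition function depends only on the number of particles. -/
theorem Zι_congr (ν : Measure E) [SigmaFinite ν] {w : E → ℝ≥0∞} {ψ : E → E → ℝ≥0∞}
    (hw : Measurable w) (hψ : Measurable (Function.uncurry ψ)) {ι ι' : Type*} [Fintype ι]
    [DecidableEq ι] [Fintype ι'] [DecidableEq ι'] (e : ι ≃ ι') :
    Zι ν w ψ ι = Zι ν w ψ ι' := by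
  unfold Zι
  have hmp := measurePreserving_piCongrLeft (α := fun _ : ι' => E) (fun _ : ι' => ν) e
  rw [← hmp.lintegral_comp (measurable_wt hw hψ ι')]
  refine lintegral_congr (fun x => ?_)
  rw [← wt_comp_equiv w ψ e]
  congr 1
  funext i
  rw [MeasurableEquiv.coe_piCongrLeft]
  exact (Equiv.piCongrLeft_apply_apply (P := fun _ : ι' => E) e x i).symm

/-- Fubini for a product of a function of the coordinates in a sub-family and a function of the
remaining coordinates. -/
theorem lintegral_split (ν : Measure E) [SigmaFinite ν] {ι : Type*} [Fintype ι] (p : ι → Prop)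
    [DecidablePred p] [i1 : Fintype {i // p i}] [i2 : Fintype {i // ¬p i}]
    {F : ({i // p i} → E) → ℝ≥0∞} {G : ({i // ¬p i} → E) → ℝ≥0∞}
    (hF : Measurable F) (hG : Measurable G) :
    ∫⁻ x : ι → E, F (fun i => x i) * G (fun i => x i) ∂(Measure.pi fun _ : ι => ν)
      = (∫⁻ y, F y ∂(Measure.pi fun _ : {i // p i} => ν))
        * ∫⁻ z, G z ∂(Measure.pi fun _ : {i // ¬p i} => ν) := by
  have hi1 : i1 = Subtype.fintype p := Subsingleton.elim _ _
  have hi2 : i2 = Subtype.fintype (fun i => ¬p i) := Subsingleton.elim _ _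
  subst hi1 hi2
  have hmp := measurePreserving_piEquivPiSubtypeProd (α := fun _ : ι => E) (fun _ : ι => ν) p
  have hf : Measurable (fun z : ({i // p i} → E) × ({i // ¬p i} → E) => F z.1 * G z.2) :=
    (hF.comp measurable_fst).mul (hG.comp measurable_snd)
  have h1 := hmp.lintegral_comp hf
  rw [lintegral_prod_mul hF.aemeasurable hG.aemeasurable] at h1
  rw [← h1]
  rfl

omit [MeasurableSpace E] in
/-- The pair weight of a configuration whose particles with label in `S` lie in `A` and whose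
other particles lie in `B` splits, when the pair factor is `1` across `A` and `B`. -/
theorem pair_split {ψ : E → E → ℝ≥0∞} {A B : Set E}
    (hcross : ∀ x ∈ A, ∀ y ∈ B, ψ x y = 1 ∧ ψ y x = 1) {ι : Type*} [Fintype ι] [DecidableEq ι]
    (S : Finset ι) (x : ι → E) (hSA : ∀ i ∈ S, x i ∈ A) (hSB : ∀ i, i ∉ S → x i ∈ B) :
    (∏ i, ∏ j, if i = j then 1 else ψ (x i) (x j))
      = (∏ i ∈ S, ∏ j ∈ S, if i = j then 1 else ψ (x i) (x j))
        * ∏ i ∈ Sᶜ, ∏ j ∈ Sᶜ, if i = j then 1 else ψ (x i) (x j) := by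
  rw [← Finset.prod_mul_prod_compl S (fun i => ∏ j, if i = j then 1 else ψ (x i) (x j))]
  have hS : (∏ i ∈ S, ∏ j, if i = j then 1 else ψ (x i) (x j))
      = ∏ i ∈ S, ∏ j ∈ S, if i = j then 1 else ψ (x i) (x j) := by
    refine Finset.prod_congr rfl (fun i hi => ?_)
    rw [← Finset.prod_mul_prod_compl S (fun j => if i = j then 1 else ψ (x i) (x j))]
    have h1 : (∏ j ∈ Sᶜ, if i = j then 1 else ψ (x i) (x j)) = 1 := by
      refine Finset.prod_eq_one (fun j hj => ?_)
      have hj' : j ∉ S := Finset.mem_compl.mp hj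
      have hne : i ≠ j := fun h => hj' (h ▸ hi)
      rw [if_neg hne]
      exact (hcross _ (hSA i hi) _ (hSB j hj')).1
    rw [h1, mul_one]
  have hSc : (∏ i ∈ Sᶜ, ∏ j, if i = j then 1 else ψ (x i) (x j))
      = ∏ i ∈ Sᶜ, ∏ j ∈ Sᶜ, if i = j then 1 else ψ (x i) (x j) := by
    refine Finset.prod_congr rfl (fun i hi => ?_)
    have hi' : i ∉ S := Finset.mem_compl.mp hi
    rw [← Finset.prod_mul_prod_compl S (fun j => if i = j then 1 else ψ (x i) (x j))]
    have h1 : (∏ j ∈ S, if i = j then 1 else ψ (x i) (x j)) = 1 := by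
      refine Finset.prod_eq_one (fun j hj => ?_)
      have hne : i ≠ j := fun h => hi' (h ▸ hj)
      rw [if_neg hne]
      exact (hcross _ (hSA j hj) _ (hSB i hi')).2
    rw [h1, one_mul]
  rw [hS, hSc]

omit [MeasurableSpace E] in
/-- A double product over a finset as a double product over the subtype. -/
theorem pair_subtype (ψ : E → E → ℝ≥0∞) {ι : Type*} [DecidableEq ι]
    (T : Finset ι) (p : ι → Prop) [Fintype {i // p i}] [DecidableEq {i // p i}]
    (hT : ∀ i, i ∈ T ↔ p i) (x : ι → E) :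
    (∏ i ∈ T, ∏ j ∈ T, if i = j then 1 else ψ (x i) (x j))
      = ∏ i : {i // p i}, ∏ j : {i // p i}, if i = j then 1 else ψ (x i) (x j) := by
  rw [Finset.prod_subtype T hT]
  refine Fintype.prod_congr _ _ (fun i => ?_)
  rw [Finset.prod_subtype T hT]
  refine Fintype.prod_congr _ _ (fun j => ?_)
  by_cases hij : i = j
  · simp [hij]
  · have hij' : (i : ι) ≠ j := fun h => hij (Subtype.ext h)
    simp [hij, hij']

omit [MeasurableSpace E] in
/-- Pointwise splitting of the weight over the subsets of labels. -/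
theorem wt_union (w : E → ℝ≥0∞) {ψ : E → E → ℝ≥0∞} {A B : Set E} (hAB : Disjoint A B)
    (hcross : ∀ x ∈ A, ∀ y ∈ B, ψ x y = 1 ∧ ψ y x = 1) {ι : Type*} [Fintype ι] [DecidableEq ι]
    (x : ι → E) :
    wt ((A ∪ B).indicator w) ψ x
      = ∑ S ∈ (Finset.univ : Finset ι).powerset,
          wt (A.indicator w) ψ (fun i : {i // i ∈ S} => x i)
            * wt (B.indicator w) ψ (fun i : {i // ¬ i ∈ S} => x i) := by
  classical
  unfold wt
  have h1 : ∀ i, (A ∪ B).indicator w (x i) = A.indicator w (x i) + B.indicator w (x i) := by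
    intro i
    rw [Set.indicator_union_of_disjoint hAB]
  simp only [h1]
  rw [Finset.prod_add, Finset.sum_mul]
  refine Finset.sum_congr rfl (fun S _ => ?_)
  have e1 : (∏ i ∈ S, A.indicator w (x i)) = ∏ i : {i // i ∈ S}, A.indicator w (x i) :=
    Finset.prod_subtype S (fun _ => Iff.rfl) (fun i => A.indicator w (x i))
  have e2 : (∏ i ∈ Finset.univ \ S, B.indicator w (x i))
      = ∏ i : {i // ¬ i ∈ S}, B.indicator w (x i) :=
    Finset.prod_subtype (Finset.univ \ S) (by simp) (fun i => B.indicator w (x i))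
  have e3 := pair_subtype ψ S (fun i => i ∈ S) (fun _ => Iff.rfl) x
  have e4 := pair_subtype ψ Sᶜ (fun i => ¬ i ∈ S) (fun _ => Finset.mem_compl) x
  rw [e1, e2, ← e3, ← e4]
  by_cases hmem : (∀ i ∈ S, x i ∈ A) ∧ (∀ i, i ∉ S → x i ∈ B)
  · rw [pair_split hcross S x hmem.1 hmem.2]
    ring
  · have hz : (∏ i : {i // i ∈ S}, A.indicator w (x i))
        * (∏ i : {i // ¬ i ∈ S}, B.indicator w (x i)) = 0 := by
      by_cases hA' : ∀ i ∈ S, x i ∈ A
      · have hB' : ¬ ∀ i, i ∉ S → x i ∈ B := fun h => hmem ⟨hA', h⟩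
        push Not at hB'
        obtain ⟨i, hi, hxi⟩ := hB'
        have : (∏ i : {i // ¬ i ∈ S}, B.indicator w (x i)) = 0 :=
          Finset.prod_eq_zero (Finset.mem_univ (⟨i, hi⟩ : {i // ¬ i ∈ S}))
            (Set.indicator_of_notMem hxi w)
        rw [this, mul_zero]
      · push Not at hA'
        obtain ⟨i, hi, hxi⟩ := hA'
        have : (∏ i : {i // i ∈ S}, A.indicator w (x i)) = 0 :=
          Finset.prod_eq_zero (Finset.mem_univ (⟨i, hi⟩ : {i // i ∈ S}))
            (Set.indicator_of_notMem hxi w)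
        rw [this, zero_mul]
    rw [hz, zero_mul]
    have : ∀ a b c d : ℝ≥0∞, a * c * (b * d) = (a * b) * (c * d) := fun a b c d => by ring
    rw [this, hz, zero_mul]

/-- Splitting of the canonical partition function over the subsets of labels. -/
theorem Zι_union (ν : Measure E) [SigmaFinite ν] {w : E → ℝ≥0∞} {ψ : E → E → ℝ≥0∞}
    (hw : Measurable w) (hψ : Measurable (Function.uncurry ψ)) {A B : Set E}
    (hA : MeasurableSet A) (hB : MeasurableSet B) (hAB : Disjoint A B)
    (hcross : ∀ x ∈ A, ∀ y ∈ B, ψ x y = 1 ∧ ψ y x = 1) (ι : Type*) [Fintype ι] [DecidableEq ι] :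
    Zι ν ((A ∪ B).indicator w) ψ ι
      = ∑ S ∈ (Finset.univ : Finset ι).powerset,
          Zι ν (A.indicator w) ψ {i // i ∈ S} * Zι ν (B.indicator w) ψ {i // ¬ i ∈ S} := by
  unfold Zι
  simp only [wt_union w hAB hcross]
  rw [lintegral_finsetSum]
  · refine Finset.sum_congr rfl (fun S _ => ?_)
    exact lintegral_split ν (fun i => i ∈ S) (measurable_wt (hw.indicator hA) hψ _)
      (measurable_wt (hw.indicator hB) hψ _)
  · intro S _
    refine Measurable.mul ?_ ?_
    · exact (measurable_wt (hw.indicator hA) hψ _).comp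
        (measurable_pi_lambda _ (fun i => measurable_pi_apply _))
    · exact (measurable_wt (hw.indicator hB) hψ _).comp
        (measurable_pi_lambda _ (fun i => measurable_pi_apply _))

/-- Binomial splitting of the canonical partition function of `N` particles in `A ∪ B`. -/
theorem Zc_union (ν : Measure E) [SigmaFinite ν] {w : E → ℝ≥0∞} {ψ : E → E → ℝ≥0∞}
    (hw : Measurable w) (hψ : Measurable (Function.uncurry ψ)) {A B : Set E}
    (hA : MeasurableSet A) (hB : MeasurableSet B) (hAB : Disjoint A B)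
    (hcross : ∀ x ∈ A, ∀ y ∈ B, ψ x y = 1 ∧ ψ y x = 1) (N : ℕ) :
    Zc ν ((A ∪ B).indicator w) ψ N
      = ∑ k ∈ Finset.range (N + 1), (N.choose k : ℝ≥0∞)
          * (Zc ν (A.indicator w) ψ k * Zc ν (B.indicator w) ψ (N - k)) := by
  unfold Zc
  rw [Zι_union ν hw hψ hA hB hAB hcross (Fin N)]
  have key : ∀ S ∈ (Finset.univ : Finset (Fin N)).powerset,
      Zι ν (A.indicator w) ψ {i // i ∈ S} * Zι ν (B.indicator w) ψ {i // ¬ i ∈ S}
        = (fun k => Zι ν (A.indicator w) ψ (Fin k) * Zι ν (B.indicator w) ψ (Fin (N - k)))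
            S.card := by
    intro S _
    have c1 : Fintype.card {i // i ∈ S} = S.card :=
      Fintype.card_of_subtype S (fun _ => Iff.rfl)
    have c2 : Fintype.card {i // ¬ i ∈ S} = N - S.card := by
      rw [Fintype.card_of_subtype Sᶜ (fun _ => Finset.mem_compl), Finset.card_compl,
        Fintype.card_fin]
    rw [Zι_congr ν (hw.indicator hA) hψ (Fintype.equivFinOfCardEq c1),
      Zι_congr ν (hw.indicator hB) hψ (Fintype.equivFinOfCardEq c2)]
  rw [Finset.sum_congr rfl key]
  have h := Finset.sum_powerset_apply_card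
    (fun k => Zι ν (A.indicator w) ψ (Fin k) * Zι ν (B.indicator w) ψ (Fin (N - k)))
    (x := (Finset.univ : Finset (Fin N)))
  rw [h]
  simp only [Finset.card_univ, Fintype.card_fin, nsmul_eq_mul]

/-- Cauchy product of two series of extended nonnegative reals. -/
theorem tsum_mul_tsum_antidiagonal (a b : ℕ → ℝ≥0∞) :
    (∑' k, a k) * (∑' l, b l)
      = ∑' N, ∑ p ∈ Finset.HasAntidiagonal.antidiagonal N, a p.1 * b p.2 := by
  rw [← ENNReal.tsum_mul_right]
  simp_rw [← ENNReal.tsum_mul_left]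
  rw [← ENNReal.tsum_prod (f := fun k l => a k * b l)]
  rw [← (Finset.HasAntidiagonal.sigmaAntidiagonalEquivProd (A := ℕ)).tsum_eq (fun p : ℕ × ℕ => a p.1 * b p.2)]
  rw [ENNReal.tsum_sigma']
  refine tsum_congr (fun N => ?_)
  rw [← Finset.tsum_subtype (Finset.HasAntidiagonal.antidiagonal N) (fun p : ℕ × ℕ => a p.1 * b p.2)]
  rfl

/-- **Poisson factorisation**: the grand-canonical partition function of `A ∪ B` is the product
of those of `A` and `B`, for disjoint `A`, `B` across which the pair factor is `1`. -/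
theorem Xi_union (ν : Measure E) [SigmaFinite ν] {w : E → ℝ≥0∞} {ψ : E → E → ℝ≥0∞}
    (hw : Measurable w) (hψ : Measurable (Function.uncurry ψ)) {A B : Set E}
    (hA : MeasurableSet A) (hB : MeasurableSet B) (hAB : Disjoint A B)
    (hcross : ∀ x ∈ A, ∀ y ∈ B, ψ x y = 1 ∧ ψ y x = 1) :
    Xi ν ((A ∪ B).indicator w) ψ = Xi ν (A.indicator w) ψ * Xi ν (B.indicator w) ψ := by
  unfold Xi
  rw [tsum_mul_tsum_antidiagonal]
  refine tsum_congr (fun N => ?_)
  rw [Zc_union ν hw hψ hA hB hAB hcross N, Finset.mul_sum,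
    ← Finset.Nat.sum_antidiagonal_eq_sum_range_succ
      (fun k l => ((N ! : ℕ) : ℝ≥0∞)⁻¹ * ((N.choose k : ℝ≥0∞)
        * (Zc ν (A.indicator w) ψ k * Zc ν (B.indicator w) ψ l)))]
  refine Finset.sum_congr rfl (fun p hp => ?_)
  have hN : p.1 + p.2 = N := Finset.HasAntidiagonal.mem_antidiagonal.mp hp
  have hfac : ((N ! : ℕ) : ℝ≥0∞)⁻¹ * (N.choose p.1 : ℝ≥0∞)
      = ((p.1 ! : ℕ) : ℝ≥0∞)⁻¹ * ((p.2 ! : ℕ) : ℝ≥0∞)⁻¹ := by
    have h1 : N.choose p.1 * p.1 ! * p.2 ! = N ! := by
      have h0 := Nat.choose_mul_factorial_mul_factorial (n := N) (k := p.1) (by omega)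
      have h3 : N - p.1 = p.2 := by omega
      rwa [h3] at h0
    have hc0 : (N.choose p.1 : ℝ≥0∞) ≠ 0 := by
      have : 0 < N.choose p.1 := Nat.choose_pos (by omega)
      exact_mod_cast this.ne'
    have hk0 : ((p.1 ! : ℕ) : ℝ≥0∞) ≠ 0 := by exact_mod_cast (Nat.factorial_pos p.1).ne'
    have hl0 : ((p.2 ! : ℕ) : ℝ≥0∞) ≠ 0 := by exact_mod_cast (Nat.factorial_pos p.2).ne'
    have h2 : ((N ! : ℕ) : ℝ≥0∞)
        = (N.choose p.1 : ℝ≥0∞) * (((p.1 ! : ℕ) : ℝ≥0∞) * ((p.2 ! : ℕ) : ℝ≥0∞)) := by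
      rw [← h1]
      push_cast
      ring
    rw [h2, ENNReal.mul_inv (Or.inl hc0) (Or.inl (ENNReal.natCast_ne_top _)),
      ENNReal.mul_inv (Or.inl hk0) (Or.inl (ENNReal.natCast_ne_top _))]
    rw [mul_comm ((N.choose p.1 : ℝ≥0∞)⁻¹) _, mul_assoc,
      ENNReal.inv_mul_cancel hc0 (ENNReal.natCast_ne_top _), mul_one]
  calc ((N ! : ℕ) : ℝ≥0∞)⁻¹ * ((N.choose p.1 : ℝ≥0∞)
        * (Zc ν (A.indicator w) ψ p.1 * Zc ν (B.indicator w) ψ p.2))
      = (((N ! : ℕ) : ℝ≥0∞)⁻¹ * (N.choose p.1 : ℝ≥0∞))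
        * (Zc ν (A.indicator w) ψ p.1 * Zc ν (B.indicator w) ψ p.2) := by ring
    _ = _ := by rw [hfac]; ring

omit [MeasurableSpace E] in
theorem wt_mono {w w' : E → ℝ≥0∞} {ψ ψ' : E → E → ℝ≥0∞} (hw : ∀ x, w x ≤ w' x)
    (hψ : ∀ x y, ψ x y ≤ ψ' x y) {ι : Type*} [Fintype ι] [DecidableEq ι] (x : ι → E) :
    wt w ψ x ≤ wt w' ψ' x := by
  unfold wt
  refine mul_le_mul' (Finset.prod_le_prod' (fun i _ => hw _)) ?_
  refine Finset.prod_le_prod' (fun i _ => Finset.prod_le_prod' (fun j _ => ?_))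
  by_cases hij : i = j
  · simp [hij]
  · simp only [hij, if_false]
    exact hψ _ _

/-- Monotonicity of the canonical partition function in the one-body and pair factors. -/
theorem Zc_mono (ν : Measure E) {w w' : E → ℝ≥0∞} {ψ ψ' : E → E → ℝ≥0∞} (hw : ∀ x, w x ≤ w' x)
    (hψ : ∀ x y, ψ x y ≤ ψ' x y) (N : ℕ) : Zc ν w ψ N ≤ Zc ν w' ψ' N :=
  lintegral_mono (fun x => wt_mono hw hψ x)

/-- Monotonicity of the grand-canonical partition function. -/
theorem Xi_mono (ν : Measure E) {w w' : E → ℝ≥0∞} {ψ ψ' : E → E → ℝ≥0∞} (hw : ∀ x, w x ≤ w' x)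
    (hψ : ∀ x y, ψ x y ≤ ψ' x y) : Xi ν w ψ ≤ Xi ν w' ψ' :=
  ENNReal.tsum_le_tsum (fun N => mul_le_mul' le_rfl (Zc_mono ν hw hψ N))

/-- The empty configuration has weight one. -/
theorem Zc_zero (ν : Measure E) [SigmaFinite ν] (w : E → ℝ≥0∞) (ψ : E → E → ℝ≥0∞) :
    Zc ν w ψ 0 = 1 := by
  unfold Zc Zι wt
  simp

/-- The term `N = 0` gives `1 ≤ Xi`. -/
theorem one_le_Xi (ν : Measure E) [SigmaFinite ν] (w : E → ℝ≥0∞) (ψ : E → E → ℝ≥0∞) :
    1 ≤ Xi ν w ψ := by
  unfold Xi
  calc (1 : ℝ≥0∞) = ((0 ! : ℕ) : ℝ≥0∞)⁻¹ * Zc ν w ψ 0 := by rw [Zc_zero]; simp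
    _ ≤ _ := ENNReal.le_tsum 0

/-- With a vanishing one-body factor only the empty configuration contributes. -/
theorem Xi_zero (ν : Measure E) [SigmaFinite ν] (ψ : E → E → ℝ≥0∞) :
    Xi ν (fun _ => 0) ψ = 1 := by
  unfold Xi
  rw [tsum_eq_single 0]
  · rw [Zc_zero]; simp
  · intro N hN
    have : Zc ν (fun _ => 0) ψ N = 0 := by
      unfold Zc Zι wt
      simp [hN]
    rw [this, mul_zero]

/-- **Poisson factorisation over finitely many cells**: pairwise disjoint measurable cells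
across which the pair factor is `1`. -/
theorem Xi_biUnion (ν : Measure E) [SigmaFinite ν] {w : E → ℝ≥0∞} {ψ : E → E → ℝ≥0∞}
    (hw : Measurable w) (hψ : Measurable (Function.uncurry ψ)) {κ : Type*} (s : Finset κ)
    (D : κ → Set E) (hD : ∀ v ∈ s, MeasurableSet (D v))
    (hdisj : ∀ v ∈ s, ∀ v' ∈ s, v ≠ v' → Disjoint (D v) (D v'))
    (hcross : ∀ v ∈ s, ∀ v' ∈ s, v ≠ v' → ∀ x ∈ D v, ∀ y ∈ D v', ψ x y = 1) :
    Xi ν ((⋃ v ∈ s, D v).indicator w) ψ = ∏ v ∈ s, Xi ν ((D v).indicator w) ψ := by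
  classical
  induction s using Finset.induction_on with
  | empty =>
    simp only [Finset.notMem_empty, Set.iUnion_of_empty, Set.iUnion_empty, Set.indicator_empty,
      Finset.prod_empty]
    exact Xi_zero ν ψ
  | insert a s ha ih =>
    rw [Finset.set_biUnion_insert, Finset.prod_insert ha]
    have hB : MeasurableSet (⋃ v ∈ s, D v) :=
      Finset.measurableSet_biUnion s (fun v hv => hD v (Finset.mem_insert_of_mem hv))
    have hAB : Disjoint (D a) (⋃ v ∈ s, D v) := by
      rw [Set.disjoint_iUnion₂_right]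
      intro v hv
      exact hdisj a (Finset.mem_insert_self a s) v (Finset.mem_insert_of_mem hv)
        (fun h => ha (h ▸ hv))
    have hc : ∀ x ∈ D a, ∀ y ∈ ⋃ v ∈ s, D v, ψ x y = 1 ∧ ψ y x = 1 := by
      intro x hx y hy
      simp only [Set.mem_iUnion, exists_prop] at hy
      obtain ⟨v, hv, hyv⟩ := hy
      have hne : a ≠ v := fun h => ha (h ▸ hv)
      exact ⟨hcross a (Finset.mem_insert_self a s) v (Finset.mem_insert_of_mem hv) hne x hx y hyv,
        hcross v (Finset.mem_insert_of_mem hv) a (Finset.mem_insert_self a s) hne.symm y hyv x hx⟩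
    rw [Xi_union ν hw hψ (hD a (Finset.mem_insert_self a s)) hB hAB hc]
    rw [ih (fun v hv => hD v (Finset.mem_insert_of_mem hv))
      (fun v hv v' hv' => hdisj v (Finset.mem_insert_of_mem hv) v' (Finset.mem_insert_of_mem hv'))
      (fun v hv v' hv' => hcross v (Finset.mem_insert_of_mem hv) v'
        (Finset.mem_insert_of_mem hv'))]

/-- Invariance of the canonical partition function under a measure-preserving map of the
one-particle space. -/
theorem Zc_comp (ν : Measure E) [SigmaFinite ν] {w : E → ℝ≥0∞} {ψ : E → E → ℝ≥0∞}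
    (hw : Measurable w) (hψ : Measurable (Function.uncurry ψ)) {τ : E → E}
    (hτ : MeasurePreserving τ ν ν) (N : ℕ) :
    Zc ν (fun x => w (τ x)) (fun x y => ψ (τ x) (τ y)) N = Zc ν w ψ N := by
  unfold Zc Zι
  have hmp := measurePreserving_pi (fun _ : Fin N => ν) (fun _ : Fin N => ν)
    (f := fun _ : Fin N => τ) (fun _ => hτ)
  rw [← hmp.lintegral_comp (measurable_wt hw hψ (Fin N))]
  rfl

/-- Invariance of the grand-canonical partition function under a measure-preserving map of the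
one-particle space (for instance a translation). -/
theorem Xi_comp (ν : Measure E) [SigmaFinite ν] {w : E → ℝ≥0∞} {ψ : E → E → ℝ≥0∞}
    (hw : Measurable w) (hψ : Measurable (Function.uncurry ψ)) {τ : E → E}
    (hτ : MeasurePreserving τ ν ν) :
    Xi ν (fun x => w (τ x)) (fun x y => ψ (τ x) (τ y)) = Xi ν w ψ := by
  unfold Xi
  exact tsum_congr (fun N => by rw [Zc_comp ν hw hψ hτ N])

omit [MeasurableSpace E] in
/-- Scaling of the weight: a constant factor `a` per particle and `b` per ordered pair. -/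
theorem wt_const_mul (a b : ℝ≥0∞) (w : E → ℝ≥0∞) (ψ : E → E → ℝ≥0∞) {ι : Type*} [Fintype ι]
    [DecidableEq ι] (x : ι → E) :
    wt (fun p => a * w p) (fun p q => b * ψ p q) x
      = a ^ Fintype.card ι * b ^ (Fintype.card ι * (Fintype.card ι - 1)) * wt w ψ x := by
  unfold wt
  have h1 : (∏ i, a * w (x i)) = a ^ Fintype.card ι * ∏ i, w (x i) := by
    rw [Finset.prod_mul_distrib, Finset.prod_const, Finset.card_univ]
  have h2 : ∀ i : ι, (∏ j, if i = j then (1 : ℝ≥0∞) else b * ψ (x i) (x j))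
      = b ^ (Fintype.card ι - 1) * ∏ j, if i = j then 1 else ψ (x i) (x j) := by
    intro i
    have h3 : ∀ j, (if i = j then (1 : ℝ≥0∞) else b * ψ (x i) (x j))
        = (if i = j then 1 else b) * (if i = j then 1 else ψ (x i) (x j)) := by
      intro j
      by_cases hij : i = j <;> simp [hij]
    simp only [h3]
    rw [Finset.prod_mul_distrib]
    congr 1
    rw [Finset.prod_ite, Finset.prod_const_one, one_mul, Finset.prod_const]
    congr 1
    have : (Finset.univ.filter (fun j => ¬ i = j)) = Finset.univ.erase i := by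
      ext j
      simp [eq_comm]
    rw [this, Finset.card_erase_of_mem (Finset.mem_univ i), Finset.card_univ]
  have h4 : (∏ i, ∏ j, if i = j then (1 : ℝ≥0∞) else b * ψ (x i) (x j))
      = b ^ (Fintype.card ι * (Fintype.card ι - 1))
        * ∏ i, ∏ j, if i = j then 1 else ψ (x i) (x j) := by
    simp only [h2]
    rw [Finset.prod_mul_distrib, Finset.prod_const, Finset.card_univ, ← pow_mul,
      Nat.mul_comm (Fintype.card ι - 1) (Fintype.card ι)]
  rw [h1, h4]
  ring

/-- Scaling of the canonical partition function. -/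
theorem Zc_const_mul (ν : Measure E) {w : E → ℝ≥0∞} {ψ : E → E → ℝ≥0∞}
    (hw : Measurable w) (hψ : Measurable (Function.uncurry ψ)) (a b : ℝ≥0∞) (N : ℕ) :
    Zc ν (fun p => a * w p) (fun p q => b * ψ p q) N
      = a ^ N * b ^ (N * (N - 1)) * Zc ν w ψ N := by
  unfold Zc Zι
  simp only [wt_const_mul, Fintype.card_fin]
  rw [lintegral_const_mul _ (measurable_wt hw hψ (Fin N))]

/-- The grand-canonical partition function as a power series in the activity. -/
theorem Xi_const_mul (ν : Measure E) {w : E → ℝ≥0∞} {ψ : E → E → ℝ≥0∞}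
    (hw : Measurable w) (hψ : Measurable (Function.uncurry ψ)) (a b : ℝ≥0∞) :
    Xi ν (fun p => a * w p) (fun p q => b * ψ p q)
      = ∑' N : ℕ, ((N ! : ℕ) : ℝ≥0∞)⁻¹ * (a ^ N * b ^ (N * (N - 1)) * Zc ν w ψ N) := by
  unfold Xi
  exact tsum_congr (fun N => by rw [Zc_const_mul ν hw hψ a b N])

end Vale.Agent.H27.PF
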