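import Mathlib

/-!
# Elementary maximum-principle tools

Interior minimum => Laplacian is nonnegative; Laplacian as a sum of second
derivatives along coordinate lines.
-/

set_option autoImplicit false

open Filter Topology Laplacian

namespace Vale.Agent.H27

/-- One-dimensional second-order necessary condition at a local minimum. -/
theorem deriv2_nonneg_of_isLocalMin {g : ℝ → ℝ} {t₀ : ℝ} (hmin : IsLocalMin g t₀)
    (hc : ContinuousAt g t₀) : 0 ≤ deriv (deriv g) t₀ := by
  by_contra hneg
  have hneg' : deriv (deriv g) t₀ < 0 := not_le.mp hneg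
  have hd : deriv g t₀ = 0 := hmin.deriv_eq_zero
  have hmax : IsLocalMax g t₀ := isLocalMax_of_deriv_deriv_neg hneg' hd hc
  have hconst : g =ᶠ[𝓝 t₀] fun _ => g t₀ := by
    filter_upwards [hmin, hmax] with t h1 h2
    exact le_antisymm h2 h1
  have hderiv : deriv g =ᶠ[𝓝 t₀] fun _ => 0 := by
    have := hconst.deriv
    simpa using this
  have h2 : deriv (deriv g) t₀ = 0 := by
    have := hderiv.deriv_eq
    simpa using this
  linarith

section
variable {E : Type*} [NormedAddCommGroup E] [NormedSpace ℝ E]

/-- The second derivative along a line is the second Frechet derivative on the diagonal. -/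
theorem deriv2_line_eq {f : E → ℝ} {x v : E} (hf : ContDiffAt ℝ 2 f x) :
    deriv (deriv (fun t : ℝ => f (x + t • v))) 0 = iteratedFDeriv ℝ 2 f x ![v, v] := by
  have hL : ∀ t : ℝ, HasDerivAt (fun t : ℝ => x + t • v) v t := by
    intro t
    have h1 : HasDerivAt (fun t : ℝ => t • v) ((1 : ℝ) • v) t := (hasDerivAt_id t).smul_const v
    simpa using h1.const_add x
  have hcont : Continuous (fun t : ℝ => x + t • v) := by fun_prop
  have hev : ∀ᶠ y in 𝓝 x, DifferentiableAt ℝ f y := by
    filter_upwards [hf.eventually (by simp)] with y hy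
    exact hy.differentiableAt (by simp)
  have hev' : ∀ᶠ t in 𝓝 (0 : ℝ), DifferentiableAt ℝ f (x + t • v) := by
    have h0 : Tendsto (fun t : ℝ => x + t • v) (𝓝 0) (𝓝 x) := by
      have := hcont.tendsto 0
      simpa using this
    exact h0.eventually hev
  have hd1 : deriv (fun t : ℝ => f (x + t • v)) =ᶠ[𝓝 0] fun t => fderiv ℝ f (x + t • v) v := by
    filter_upwards [hev'] with t ht
    exact (ht.hasFDerivAt.comp_hasDerivAt t (hL t)).deriv
  rw [hd1.deriv_eq]
  have hdf : DifferentiableAt ℝ (fderiv ℝ f) x := by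
    have h1 : ContDiffAt ℝ 1 (fderiv ℝ f) x := hf.fderiv_right (m := 1) (by norm_num)
    exact h1.differentiableAt (by simp)
  have h2 : HasDerivAt (fun t : ℝ => fderiv ℝ f (x + t • v)) (fderiv ℝ (fderiv ℝ f) x v) 0 := by
    have hx0 : x + (0 : ℝ) • v = x := by simp
    have h3 : HasFDerivAt (fderiv ℝ f) (fderiv ℝ (fderiv ℝ f) x) (x + (0 : ℝ) • v) := by
      rw [hx0]; exact hdf.hasFDerivAt
    exact h3.comp_hasDerivAt 0 (hL 0)
  have h4 : HasDerivAt (fun t : ℝ => fderiv ℝ f (x + t • v) v) (fderiv ℝ (fderiv ℝ f) x v v) 0 := by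
    have := h2.clm_apply (hasDerivAt_const (0 : ℝ) v)
    simpa using this
  rw [h4.deriv, iteratedFDeriv_two_apply]
  simp

end

section
variable {E : Type*} [NormedAddCommGroup E] [InnerProductSpace ℝ E] [FiniteDimensional ℝ E]

/-- The Laplacian as the sum of second derivatives along the lines of an orthonormal basis. -/
theorem laplacian_eq_sum_deriv2 {ι : Type*} [Fintype ι] (v : OrthonormalBasis ι ℝ E)
    {f : E → ℝ} {x : E} (hf : ContDiffAt ℝ 2 f x) :
    Δ f x = ∑ i, deriv (deriv (fun t : ℝ => f (x + t • v i))) 0 := by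
  rw [InnerProductSpace.laplacian_eq_iteratedFDeriv_orthonormalBasis f v]
  simp [deriv2_line_eq hf]

/-- At an interior local minimum of a `C^2` function the Laplacian is nonnegative. -/
theorem laplacian_nonneg_of_isLocalMin {f : E → ℝ} {x : E} (hf : ContDiffAt ℝ 2 f x)
    (hmin : IsLocalMin f x) : 0 ≤ Δ f x := by
  rw [laplacian_eq_sum_deriv2 (stdOrthonormalBasis ℝ E) hf]
  apply Finset.sum_nonneg
  intro i _
  set v := stdOrthonormalBasis ℝ E i
  have hcont : Continuous (fun t : ℝ => x + t • v) := by fun_prop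
  have h0 : Tendsto (fun t : ℝ => x + t • v) (𝓝 0) (𝓝 x) := by
    have := hcont.tendsto 0
    simpa using this
  apply deriv2_nonneg_of_isLocalMin
  · have := h0.eventually hmin
    filter_upwards [this] with t ht
    simpa using ht
  · have hfc : ContinuousAt f (x + (0 : ℝ) • v) := by
      simpa using hf.continuousAt
    exact ContinuousAt.comp (f := fun t : ℝ => x + t • v) (g := f) hfc hcont.continuousAt

end

end Vale.Agent.H27
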