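import Mathlib
import Vale.Agent.H27.MaxPrinciple

/-!
# Comparison principles on compact sets, annuli and balls
-/

set_option autoImplicit false
set_option linter.unusedSectionVars false

open Filter Topology Laplacian Metric

namespace Vale.Agent.H27

variable {E : Type*} [NormedAddCommGroup E] [InnerProductSpace ℝ E] [FiniteDimensional ℝ E]

/-- Minimum principle: a continuous function on a compact set which is `C^2` with negative
Laplacian at every point outside `S` (all such points being interior to `K`) is bounded below on `K`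
by any lower bound valid on `K ∩ S`. -/
theorem min_principle_compact {K S : Set E} {f : E → ℝ} (hK : IsCompact K)
    (hf : ContinuousOn f K)
    (hint : ∀ x ∈ K, x ∉ S → K ∈ 𝓝 x ∧ ContDiffAt ℝ 2 f x ∧ Δ f x < 0)
    {c : ℝ} (hc : ∀ y ∈ K, y ∈ S → c ≤ f y) : ∀ x ∈ K, c ≤ f x := by
  intro x hx
  obtain ⟨y, hyK, hy⟩ := hK.exists_isMinOn ⟨x, hx⟩ hf
  have hyx : f y ≤ f x := hy hx
  by_cases hyS : y ∈ S
  · exact le_trans (hc y hyK hyS) hyx
  · exfalso
    obtain ⟨hnhds, hC2, hneg⟩ := hint y hyK hyS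
    have hloc : IsLocalMin f y := hy.isLocalMin hnhds
    have := laplacian_nonneg_of_isLocalMin hC2 hloc
    linarith

/-- Comparison on a closed annulus centred at the origin. -/
theorem annulus_compare {f : E → ℝ} {r R c : ℝ}
    (hf : ContinuousOn f {x : E | r ≤ ‖x‖ ∧ ‖x‖ ≤ R})
    (hint : ∀ x : E, r < ‖x‖ → ‖x‖ < R → ContDiffAt ℝ 2 f x ∧ Δ f x < 0)
    (hr : ∀ y : E, ‖y‖ = r → c ≤ f y) (hR : ∀ y : E, ‖y‖ = R → c ≤ f y) :
    ∀ x : E, r ≤ ‖x‖ → ‖x‖ ≤ R → c ≤ f x := by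
  intro x hx1 hx2
  have hK : IsCompact {x : E | r ≤ ‖x‖ ∧ ‖x‖ ≤ R} := by
    have h1 : {x : E | r ≤ ‖x‖ ∧ ‖x‖ ≤ R} = closedBall (0 : E) R ∩ {x : E | r ≤ ‖x‖} := by
      ext y; simp [and_comm]
    rw [h1]
    exact (isCompact_closedBall (0 : E) R).inter_right (isClosed_le continuous_const continuous_norm)
  refine min_principle_compact (S := {x : E | ‖x‖ = r ∨ ‖x‖ = R}) hK hf ?_ ?_ x ⟨hx1, hx2⟩
  · intro y hy hyS
    have hy1 : r < ‖y‖ := lt_of_le_of_ne hy.1 (fun h => hyS (Or.inl h.symm))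
    have hy2 : ‖y‖ < R := lt_of_le_of_ne hy.2 (fun h => hyS (Or.inr h))
    refine ⟨?_, hint y hy1 hy2⟩
    have hopen : IsOpen {x : E | r < ‖x‖ ∧ ‖x‖ < R} :=
      (isOpen_lt continuous_const continuous_norm).inter (isOpen_lt continuous_norm continuous_const)
    exact Filter.mem_of_superset (hopen.mem_nhds ⟨hy1, hy2⟩) (fun z hz => ⟨hz.1.le, hz.2.le⟩)
  · intro y _ hyS
    rcases hyS with h | h
    · exact hr y h
    · exact hR y h

/-- Comparison on a closed ball. -/
theorem ball_compare {f : E → ℝ} {x₀ : E} {ρ c : ℝ}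
    (hf : ContinuousOn f (closedBall x₀ ρ))
    (hint : ∀ x : E, dist x x₀ < ρ → ContDiffAt ℝ 2 f x ∧ Δ f x < 0)
    (hb : ∀ y : E, dist y x₀ = ρ → c ≤ f y) :
    ∀ x : E, dist x x₀ ≤ ρ → c ≤ f x := by
  intro x hx
  refine min_principle_compact (S := sphere x₀ ρ) (isCompact_closedBall x₀ ρ) hf ?_ ?_ x
    (mem_closedBall.mpr hx)
  · intro y hy hyS
    have hy1 : dist y x₀ < ρ := lt_of_le_of_ne (mem_closedBall.mp hy) (fun h => hyS (mem_sphere.mpr h))
    exact ⟨Filter.mem_of_superset (isOpen_ball.mem_nhds (mem_ball.mpr hy1)) ball_subset_closedBall,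
      hint y hy1⟩
  · intro y _ hyS
    exact hb y (mem_sphere.mp hyS)

end Vale.Agent.H27
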