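import Mathlib
import Vale.Agent.H27.MaxPrinciple

/-!
# Laplacian of radial functions `F (‖x‖ ^ 2)`
-/

set_option autoImplicit false
set_option linter.unusedSectionVars false

open Filter Topology Laplacian

namespace Vale.Agent.H27

/-- Second derivative at `0` of `t ↦ F (s + 2 t a + t^2)`. -/
theorem deriv2_comp_quadratic {F : ℝ → ℝ} {s a : ℝ} (hF : ContDiffAt ℝ 2 F s) :
    deriv (deriv (fun t : ℝ => F (s + 2 * t * a + t ^ 2))) 0
      = deriv (deriv F) s * (2 * a) ^ 2 + 2 * deriv F s := by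
  set q : ℝ → ℝ := fun t => s + 2 * t * a + t ^ 2 with hq
  have hq0 : q 0 = s := by simp [hq]
  have hqd : ∀ t : ℝ, HasDerivAt q (2 * a + 2 * t) t := by
    intro t
    have h1 : HasDerivAt (fun t : ℝ => 2 * t * a) (2 * a) t := by
      have := ((hasDerivAt_id t).const_mul (2 : ℝ)).mul_const a
      simpa using this
    have h2 : HasDerivAt (fun t : ℝ => t ^ 2) (2 * t) t := by
      have := hasDerivAt_pow 2 t
      simpa using this
    have h3 := (h1.const_add s).add h2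
    exact h3
  have hqc : Continuous q := by
    simp only [hq]; fun_prop
  have hev : ∀ᶠ y in 𝓝 s, DifferentiableAt ℝ F y := by
    filter_upwards [hF.eventually (by simp)] with y hy
    exact hy.differentiableAt (by simp)
  have hq_tend : Tendsto q (𝓝 0) (𝓝 s) := by
    have := hqc.tendsto 0
    rwa [hq0] at this
  have hev' : ∀ᶠ t in 𝓝 (0 : ℝ), DifferentiableAt ℝ F (q t) := hq_tend.eventually hev
  have hd1 : deriv (fun t : ℝ => F (q t)) =ᶠ[𝓝 0] fun t => deriv F (q t) * (2 * a + 2 * t) := by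
    filter_upwards [hev'] with t ht
    exact (ht.hasDerivAt.comp t (hqd t)).deriv
  rw [hd1.deriv_eq]
  have hdF : DifferentiableAt ℝ (deriv F) s := by
    have h1 : ContDiffAt ℝ 1 (fderiv ℝ F) s := hF.fderiv_right (m := 1) (by norm_num)
    have h2 : DifferentiableAt ℝ (fderiv ℝ F) s := h1.differentiableAt (by simp)
    have h3 : DifferentiableAt ℝ (fun y => fderiv ℝ F y 1) s :=
      h2.clm_apply (differentiableAt_const _)
    exact h3
  have h4 : HasDerivAt (fun t : ℝ => deriv F (q t)) (deriv (deriv F) s * (2 * a + 2 * 0)) 0 := by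
    have h5 : HasDerivAt (deriv F) (deriv (deriv F) s) (q 0) := by
      rw [hq0]; exact hdF.hasDerivAt
    exact h5.comp 0 (hqd 0)
  have h6 : HasDerivAt (fun t : ℝ => 2 * a + 2 * t) 2 0 := by
    have := ((hasDerivAt_id (0 : ℝ)).const_mul (2 : ℝ)).const_add (2 * a)
    simpa using this
  have h7 : HasDerivAt (fun t : ℝ => deriv F (q t) * (2 * a + 2 * t))
      (deriv (deriv F) s * (2 * a + 2 * 0) * (2 * a + 2 * 0) + deriv F (q 0) * 2) 0 := h4.mul h6
  rw [h7.deriv, hq0]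
  ring

section
variable {E : Type*} [NormedAddCommGroup E] [InnerProductSpace ℝ E] [FiniteDimensional ℝ E]

/-- Laplacian of a radial function centred at `c`, written as `F (‖x - c‖ ^ 2)`. -/
theorem laplacian_radial_center {F : ℝ → ℝ} (c : E) {x : E} (hF : ContDiffAt ℝ 2 F (‖x - c‖ ^ 2)) :
    Δ (fun y : E => F (‖y - c‖ ^ 2)) x
      = 4 * ‖x - c‖ ^ 2 * deriv (deriv F) (‖x - c‖ ^ 2)
        + 2 * (Module.finrank ℝ E : ℝ) * deriv F (‖x - c‖ ^ 2) := by
  have hcomp : ContDiffAt ℝ 2 (fun y : E => F (‖y - c‖ ^ 2)) x := by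
    have h0 : ContDiffAt ℝ 2 (fun y : E => y - c) x := (contDiff_id.sub contDiff_const).contDiffAt
    have h1 : ContDiffAt ℝ 2 (fun y : E => ‖y - c‖ ^ 2) x := h0.norm_sq ℝ
    exact ContDiffAt.comp x hF h1
  rw [laplacian_eq_sum_deriv2 (stdOrthonormalBasis ℝ E) hcomp]
  have hterm : ∀ i, deriv (deriv (fun t : ℝ =>
      (fun y : E => F (‖y - c‖ ^ 2)) (x + t • stdOrthonormalBasis ℝ E i))) 0
      = deriv (deriv F) (‖x - c‖ ^ 2) * (2 * inner ℝ (x - c) (stdOrthonormalBasis ℝ E i)) ^ 2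
        + 2 * deriv F (‖x - c‖ ^ 2) := by
    intro i
    have hv : ‖stdOrthonormalBasis ℝ E i‖ = 1 := (stdOrthonormalBasis ℝ E).orthonormal.1 i
    have hfun : (fun t : ℝ => (fun y : E => F (‖y - c‖ ^ 2)) (x + t • stdOrthonormalBasis ℝ E i))
        = fun t : ℝ =>
          F (‖x - c‖ ^ 2 + 2 * t * inner ℝ (x - c) (stdOrthonormalBasis ℝ E i) + t ^ 2) := by
      funext t
      have hsub : x + t • stdOrthonormalBasis ℝ E i - c
          = (x - c) + t • stdOrthonormalBasis ℝ E i := by abel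
      have : ‖x + t • stdOrthonormalBasis ℝ E i - c‖ ^ 2
          = ‖x - c‖ ^ 2 + 2 * t * inner ℝ (x - c) (stdOrthonormalBasis ℝ E i) + t ^ 2 := by
        rw [hsub, norm_add_sq_real, real_inner_smul_right, norm_smul, mul_pow, hv]
        simp
        ring
      simp only [this]
    rw [hfun, deriv2_comp_quadratic hF]
  simp only [hterm]
  rw [Finset.sum_add_distrib]
  have hsum : ∑ i, deriv (deriv F) (‖x - c‖ ^ 2)
        * (2 * inner ℝ (x - c) (stdOrthonormalBasis ℝ E i)) ^ 2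
      = 4 * ‖x - c‖ ^ 2 * deriv (deriv F) (‖x - c‖ ^ 2) := by
    have h1 := (stdOrthonormalBasis ℝ E).sum_sq_inner_left (x - c)
    calc ∑ i, deriv (deriv F) (‖x - c‖ ^ 2)
          * (2 * inner ℝ (x - c) (stdOrthonormalBasis ℝ E i)) ^ 2
        = ∑ i, (4 * deriv (deriv F) (‖x - c‖ ^ 2))
          * (inner ℝ (x - c) (stdOrthonormalBasis ℝ E i)) ^ 2 := by
          apply Finset.sum_congr rfl
          intro i _
          ring
      _ = (4 * deriv (deriv F) (‖x - c‖ ^ 2))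
          * ∑ i, (inner ℝ (x - c) (stdOrthonormalBasis ℝ E i)) ^ 2 := by
          rw [Finset.mul_sum]
      _ = 4 * ‖x - c‖ ^ 2 * deriv (deriv F) (‖x - c‖ ^ 2) := by
          rw [h1]; ring
  rw [hsum]
  simp [Finset.sum_const, Finset.card_univ]
  ring

/-- Laplacian of a radial function written as `F (‖x‖ ^ 2)`. -/
theorem laplacian_radial {F : ℝ → ℝ} {x : E} (hF : ContDiffAt ℝ 2 F (‖x‖ ^ 2)) :
    Δ (fun y : E => F (‖y‖ ^ 2)) x
      = 4 * ‖x‖ ^ 2 * deriv (deriv F) (‖x‖ ^ 2)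
        + 2 * (Module.finrank ℝ E : ℝ) * deriv F (‖x‖ ^ 2) := by
  have h := laplacian_radial_center (F := F) (0 : E) (x := x) (by simpa using hF)
  simpa using h

/-- `C^2` regularity of a radial function. -/
theorem contDiffAt_radial_center {F : ℝ → ℝ} (c : E) {x : E}
    (hF : ContDiffAt ℝ 2 F (‖x - c‖ ^ 2)) :
    ContDiffAt ℝ 2 (fun y : E => F (‖y - c‖ ^ 2)) x := by
  have h0 : ContDiffAt ℝ 2 (fun y : E => y - c) x := (contDiff_id.sub contDiff_const).contDiffAt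
  have h1 : ContDiffAt ℝ 2 (fun y : E => ‖y - c‖ ^ 2) x := h0.norm_sq ℝ
  exact ContDiffAt.comp x hF h1

theorem contDiffAt_radial {F : ℝ → ℝ} {x : E} (hF : ContDiffAt ℝ 2 F (‖x‖ ^ 2)) :
    ContDiffAt ℝ 2 (fun y : E => F (‖y‖ ^ 2)) x := by
  have h := contDiffAt_radial_center (F := F) (0 : E) (x := x) (by simpa using hF)
  simpa using h

/-- Laplacian of the squared distance to a point. -/
theorem laplacian_normSq_sub (c x : E) :
    Δ (fun y : E => ‖y - c‖ ^ 2) x = 2 * (Module.finrank ℝ E : ℝ) := by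
  have h := laplacian_radial_center (F := fun s : ℝ => s) c (x := x) contDiffAt_id
  have h1 : deriv (fun s : ℝ => s) = fun _ => (1 : ℝ) := by
    funext s; simp
  simp only [h1] at h
  simpa using h

/-- Laplacian of `log (‖x‖ ^ 2)` away from the origin. -/
theorem laplacian_log_normSq {x : E} (hx : x ≠ 0) :
    Δ (fun y : E => Real.log (‖y‖ ^ 2)) x
      = (2 * (Module.finrank ℝ E : ℝ) - 4) / ‖x‖ ^ 2 := by
  have hs : ‖x‖ ^ 2 ≠ 0 := by positivity
  have hF : ContDiffAt ℝ 2 Real.log (‖x‖ ^ 2) := Real.contDiffAt_log.mpr hs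
  rw [laplacian_radial hF]
  have h1 : deriv Real.log = fun s : ℝ => s⁻¹ := Real.deriv_log'
  rw [h1]
  have h2 : deriv (fun s : ℝ => s⁻¹) (‖x‖ ^ 2) = -((‖x‖ ^ 2) ^ 2)⁻¹ := by
    simp
  rw [h2]
  field_simp
  ring

theorem contDiffAt_log_normSq {x : E} (hx : x ≠ 0) :
    ContDiffAt ℝ 2 (fun y : E => Real.log (‖y‖ ^ 2)) x := by
  have hs : ‖x‖ ^ 2 ≠ 0 := by positivity
  exact contDiffAt_radial (Real.contDiffAt_log.mpr hs)

/-- Laplacian of `(‖x‖ ^ 2) ^ k` (real exponent) away from the origin. -/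
theorem laplacian_normSq_rpow (k : ℝ) {x : E} (hx : x ≠ 0) :
    Δ (fun y : E => (‖y‖ ^ 2) ^ k) x
      = 2 * k * (2 * k - 2 + (Module.finrank ℝ E : ℝ)) * (‖x‖ ^ 2) ^ (k - 1) := by
  have hs : 0 < ‖x‖ ^ 2 := by positivity
  have hF : ContDiffAt ℝ 2 (fun s : ℝ => s ^ k) (‖x‖ ^ 2) :=
    Real.contDiffAt_rpow_const_of_ne hs.ne'
  rw [laplacian_radial hF]
  have h1 : deriv (fun s : ℝ => s ^ k) (‖x‖ ^ 2) = k * (‖x‖ ^ 2) ^ (k - 1) :=
    Real.deriv_rpow_const (‖x‖ ^ 2) k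
  have h2 : deriv (deriv (fun s : ℝ => s ^ k)) (‖x‖ ^ 2)
      = k * ((k - 1) * (‖x‖ ^ 2) ^ (k - 1 - 1)) := by
    rw [Real.deriv_rpow_const' k]
    have h3 : HasDerivAt (fun s : ℝ => s ^ (k - 1)) ((k - 1) * (‖x‖ ^ 2) ^ (k - 1 - 1))
        (‖x‖ ^ 2) := Real.hasDerivAt_rpow_const (Or.inl hs.ne')
    exact (h3.const_mul k).deriv
  rw [h1, h2]
  have h4 : (‖x‖ ^ 2) ^ (k - 1) = (‖x‖ ^ 2) ^ (k - 1 - 1) * ‖x‖ ^ 2 := by
    have : k - 1 = (k - 1 - 1) + 1 := by ring
    rw [this, Real.rpow_add hs, Real.rpow_one]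
    ring_nf
  rw [h4]
  ring

theorem contDiffAt_normSq_rpow (k : ℝ) {x : E} (hx : x ≠ 0) :
    ContDiffAt ℝ 2 (fun y : E => (‖y‖ ^ 2) ^ k) x := by
  have hs : 0 < ‖x‖ ^ 2 := by positivity
  exact contDiffAt_radial (F := fun s : ℝ => s ^ k) (Real.contDiffAt_rpow_const_of_ne hs.ne')

end

end Vale.Agent.H27
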