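import Mathlib
import Vale.Agent.H27.MaxPrinciple
import Vale.Agent.H27.Radial
import Vale.Agent.H27.Compare

/-!
# Minimum principles on punctured balls (removable singularities for superharmonic functions)
-/

set_option autoImplicit false
set_option linter.unusedSectionVars false

open Filter Topology Laplacian Metric

namespace Vale.Agent.H27

variable {E : Type*} [NormedAddCommGroup E] [InnerProductSpace ℝ E] [FiniteDimensional ℝ E]

/-- Laplacian of `w + (c₁ + c₂ * g)` at a point where `w` and `g` are `C^2`. -/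
theorem laplacian_add_affine {w g : E → ℝ} {x : E} (c₁ c₂ : ℝ) (hw : ContDiffAt ℝ 2 w x)
    (hg : ContDiffAt ℝ 2 g x) :
    Δ (fun z : E => w z + (c₁ + c₂ * g z)) x = Δ w x + c₂ * Δ g x := by
  have h1 : ContDiffAt ℝ 2 (fun z : E => c₂ * g z) x := contDiffAt_const.mul hg
  have h2 : ContDiffAt ℝ 2 (fun z : E => c₁ + c₂ * g z) x := contDiffAt_const.add h1
  have e1 : (fun z : E => w z + (c₁ + c₂ * g z)) = w + (fun z : E => c₁ + c₂ * g z) := rfl
  have e2 : (fun z : E => c₁ + c₂ * g z) = (fun _ : E => c₁) + (fun z : E => c₂ * g z) := rfl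
  have e3 : (fun z : E => c₂ * g z) = c₂ • g := by
    funext z; simp
  rw [e1, hw.laplacian_add h2, e2, (contDiffAt_const (c := c₁)).laplacian_add h1, e3,
    InnerProductSpace.laplacian_smul c₂ hg]
  simp

theorem contDiffAt_add_affine {w g : E → ℝ} {x : E} (c₁ c₂ : ℝ) (hw : ContDiffAt ℝ 2 w x)
    (hg : ContDiffAt ℝ 2 g x) :
    ContDiffAt ℝ 2 (fun z : E => w z + (c₁ + c₂ * g z)) x :=
  hw.add (contDiffAt_const.add (contDiffAt_const.mul hg))

/-- If `m ≤ a + ε * b` for every `ε > 0` then `m ≤ a`. -/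
theorem le_of_forall_pos_le_add_mul {m a b : ℝ} (h : ∀ ε : ℝ, 0 < ε → m ≤ a + ε * b) : m ≤ a := by
  by_contra hlt
  have hlt' : a < m := not_le.mp hlt
  by_cases hb : b ≤ 0
  · have := h 1 one_pos
    linarith
  · have hb' : 0 < b := not_le.mp hb
    have h1 := h ((m - a) / (2 * b)) (by positivity)
    have h2 : (m - a) / (2 * b) * b = (m - a) / 2 := by
      field_simp
    linarith

/-- Generic singularity removal: a function `w` with negative Laplacian on a punctured ball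
stays above its boundary minimum up to `ε Φ`, where `Φ` is a superharmonic barrier dominating
`-w` near the puncture. -/
theorem punctured_core {w Φ : E → ℝ} {R m : ℝ}
    (hcont : ∀ x : E, x ≠ 0 → ContinuousAt w x) (hΦcont : ∀ x : E, x ≠ 0 → ContinuousAt Φ x)
    (hsup : ∀ x : E, x ≠ 0 → ‖x‖ < R → ContDiffAt ℝ 2 w x ∧ Δ w x < 0)
    (hΦ : ∀ x : E, x ≠ 0 → ContDiffAt ℝ 2 Φ x ∧ Δ Φ x ≤ 0)
    (hΦR : ∀ y : E, ‖y‖ = R → 0 ≤ Φ y)
    (hm : ∀ y : E, ‖y‖ = R → m ≤ w y)
    (hsmall : ∀ ε : ℝ, 0 < ε → ∀ ρ : ℝ, 0 < ρ →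
      ∃ δ : ℝ, 0 < δ ∧ δ ≤ ρ ∧ ∀ y : E, ‖y‖ = δ → m ≤ w y + ε * Φ y) :
    ∀ x : E, x ≠ 0 → ‖x‖ ≤ R → ∀ ε : ℝ, 0 < ε → m ≤ w x + ε * Φ x := by
  intro x hx hxR ε hε
  have hxpos : 0 < ‖x‖ := norm_pos_iff.mpr hx
  obtain ⟨δ, hδ, hδx, hδb⟩ := hsmall ε hε ‖x‖ hxpos
  have hne : ∀ y : E, δ ≤ ‖y‖ → y ≠ 0 := by
    intro y hy h0
    rw [h0, norm_zero] at hy
    linarith
  have key := annulus_compare (f := fun z : E => w z + (0 + ε * Φ z)) (r := δ) (R := R) (c := m)
    ?_ ?_ ?_ ?_ x hδx hxR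
  · simpa using key
  · intro y hy
    have hy0 : y ≠ 0 := hne y hy.1
    have h1 : ContinuousAt (fun z : E => w z + (0 + ε * Φ z)) y :=
      (hcont y hy0).add (continuousAt_const.add (continuousAt_const.mul (hΦcont y hy0)))
    exact h1.continuousWithinAt
  · intro y hy1 hy2
    have hy0 : y ≠ 0 := hne y hy1.le
    obtain ⟨hw2, hwneg⟩ := hsup y hy0 hy2
    obtain ⟨hΦ2, hΦneg⟩ := hΦ y hy0
    refine ⟨contDiffAt_add_affine 0 ε hw2 hΦ2, ?_⟩
    rw [laplacian_add_affine 0 ε hw2 hΦ2]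
    have : ε * Δ Φ y ≤ 0 := mul_nonpos_of_nonneg_of_nonpos hε.le hΦneg
    linarith
  · intro y hy
    have := hδb y hy
    simpa using this
  · intro y hy
    have h1 := hm y hy
    have h2 : 0 ≤ ε * Φ y := mul_nonneg hε.le (hΦR y hy)
    simp only [zero_add]
    linarith

/-- Laplacian of `c₁ + c₂ * g`. -/
theorem laplacian_affine {g : E → ℝ} {x : E} (c₁ c₂ : ℝ) (hg : ContDiffAt ℝ 2 g x) :
    Δ (fun z : E => c₁ + c₂ * g z) x = c₂ * Δ g x := by
  have h := laplacian_add_affine (w := fun _ : E => (0 : ℝ)) c₁ c₂ contDiffAt_const hg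
  have e : (fun z : E => (0 : ℝ) + (c₁ + c₂ * g z)) = fun z : E => c₁ + c₂ * g z := by
    funext z; ring
  rw [e] at h
  rw [h]
  simp

theorem contDiffAt_affine {g : E → ℝ} {x : E} (c₁ c₂ : ℝ) (hg : ContDiffAt ℝ 2 g x) :
    ContDiffAt ℝ 2 (fun z : E => c₁ + c₂ * g z) x :=
  contDiffAt_const.add (contDiffAt_const.mul hg)

/-- Minimum principle on a punctured ball for functions bounded below (dimension at least two):
logarithmic barrier. -/
theorem punctured_min_log {w : E → ℝ} {R m C : ℝ} (hd : 2 ≤ Module.finrank ℝ E) (hR : 0 < R)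
    (hcont : ∀ x : E, x ≠ 0 → ContinuousAt w x)
    (hsup : ∀ x : E, x ≠ 0 → ‖x‖ < R → ContDiffAt ℝ 2 w x ∧ Δ w x < 0)
    (hlow : ∀ x : E, x ≠ 0 → ‖x‖ ≤ R → C ≤ w x)
    (hm : ∀ y : E, ‖y‖ = R → m ≤ w y) :
    ∀ x : E, x ≠ 0 → ‖x‖ ≤ R → m ≤ w x := by
  intro x hx hxR
  set Φ : E → ℝ := fun y => Real.log (R ^ 2) + (-1) * Real.log (‖y‖ ^ 2) with hΦdef
  have hd' : (2 : ℝ) ≤ (Module.finrank ℝ E : ℝ) := by exact_mod_cast hd
  have hcore := punctured_core (w := w) (Φ := Φ) (R := R) (m := m) hcont ?_ hsup ?_ ?_ hm ?_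
    x hx hxR
  · exact le_of_forall_pos_le_add_mul hcore
  · intro y hy
    exact (contDiffAt_affine _ _ (contDiffAt_log_normSq hy)).continuousAt
  · intro y hy
    refine ⟨contDiffAt_affine _ _ (contDiffAt_log_normSq hy), ?_⟩
    rw [hΦdef, laplacian_affine _ _ (contDiffAt_log_normSq hy), laplacian_log_normSq hy]
    have hpos : 0 < ‖y‖ ^ 2 := by positivity
    have : 0 ≤ (2 * (Module.finrank ℝ E : ℝ) - 4) / ‖y‖ ^ 2 := by
      apply div_nonneg _ hpos.le
      linarith
    linarith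
  · intro y hy
    simp only [hΦdef, hy]
    linarith
  · intro ε hε ρ hρ
    set μ := min ρ R with hμ
    have hμpos : 0 < μ := lt_min hρ hR
    set τ := |Real.log (R ^ 2)| + |m - C| / ε + 2 * |Real.log μ| with hτ
    have hτ0 : 0 ≤ τ := by positivity
    refine ⟨Real.exp (-τ / 2), Real.exp_pos _, ?_, ?_⟩
    · have h1 : Real.exp (-τ / 2) ≤ μ := by
        have h2 : -τ / 2 ≤ Real.log μ := by
          have h3 : -|Real.log μ| ≤ Real.log μ := neg_abs_le _
          have h4 : 0 ≤ |Real.log (R ^ 2)| := abs_nonneg _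
          have h5 : 0 ≤ |m - C| / ε := by positivity
          linarith
        calc Real.exp (-τ / 2) ≤ Real.exp (Real.log μ) := Real.exp_le_exp.mpr h2
          _ = μ := Real.exp_log hμpos
      exact le_trans h1 (min_le_left _ _)
    · intro y hy
      have hyR : ‖y‖ ≤ R := by
        rw [hy]
        have h2 : -τ / 2 ≤ Real.log μ := by
          have h3 : -|Real.log μ| ≤ Real.log μ := neg_abs_le _
          have h4 : 0 ≤ |Real.log (R ^ 2)| := abs_nonneg _
          have h5 : 0 ≤ |m - C| / ε := by positivity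
          linarith
        calc Real.exp (-τ / 2) ≤ Real.exp (Real.log μ) := Real.exp_le_exp.mpr h2
          _ = μ := Real.exp_log hμpos
          _ ≤ R := min_le_right _ _
      have hy0 : y ≠ 0 := by
        intro h0
        rw [h0, norm_zero] at hy
        exact absurd hy (Real.exp_pos _).ne
      have hC := hlow y hy0 hyR
      have hlog : Real.log (‖y‖ ^ 2) = -τ := by
        rw [hy, Real.log_pow, Real.log_exp]
        push_cast
        ring
      simp only [hΦdef, hlog]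
      have h6 : (m - C) / ε ≤ |m - C| / ε := by
        apply div_le_div_of_nonneg_right (le_abs_self _) hε.le
      have h7 : -|Real.log (R ^ 2)| ≤ Real.log (R ^ 2) := neg_abs_le _
      have h8 : 0 ≤ 2 * |Real.log μ| := by positivity
      have h9 : (m - C) / ε ≤ Real.log (R ^ 2) + -1 * -τ := by
        rw [hτ]; linarith
      have h10 : m - C ≤ ε * (Real.log (R ^ 2) + -1 * -τ) := by
        have := mul_le_mul_of_nonneg_left h9 hε.le
        rwa [mul_div_cancel₀ _ hε.ne'] at this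
      linarith

/-- Minimum principle on a punctured ball allowing a logarithmic blow-down at the puncture
(dimension at least three): power barrier `‖x‖ ^ (2 - d)`. -/
theorem punctured_min_pow {w : E → ℝ} {R m C κ : ℝ} (hd : 3 ≤ Module.finrank ℝ E) (hR : 0 < R)
    (hκ : 0 ≤ κ)
    (hcont : ∀ x : E, x ≠ 0 → ContinuousAt w x)
    (hsup : ∀ x : E, x ≠ 0 → ‖x‖ < R → ContDiffAt ℝ 2 w x ∧ Δ w x < 0)
    (hlow : ∀ x : E, x ≠ 0 → ‖x‖ ≤ R → C + κ * Real.log (‖x‖ ^ 2) ≤ w x)
    (hm : ∀ y : E, ‖y‖ = R → m ≤ w y) :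
    ∀ x : E, x ≠ 0 → ‖x‖ ≤ R → m ≤ w x := by
  intro x hx hxR
  set k : ℝ := 1 - (Module.finrank ℝ E : ℝ) / 2 with hk
  have hd' : (3 : ℝ) ≤ (Module.finrank ℝ E : ℝ) := by exact_mod_cast hd
  have hk' : k ≤ -1 / 2 := by rw [hk]; linarith
  set Φ : E → ℝ := fun y => -(R ^ 2) ^ k + 1 * (‖y‖ ^ 2) ^ k with hΦdef
  have hcore := punctured_core (w := w) (Φ := Φ) (R := R) (m := m) hcont ?_ hsup ?_ ?_ hm ?_
    x hx hxR
  · exact le_of_forall_pos_le_add_mul hcore
  · intro y hy
    exact (contDiffAt_affine _ _ (contDiffAt_normSq_rpow k hy)).continuousAt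
  · intro y hy
    refine ⟨contDiffAt_affine _ _ (contDiffAt_normSq_rpow k hy), ?_⟩
    rw [hΦdef, laplacian_affine _ _ (contDiffAt_normSq_rpow k hy), laplacian_normSq_rpow k hy]
    have h0 : 2 * k - 2 + (Module.finrank ℝ E : ℝ) = 0 := by rw [hk]; ring
    rw [h0]
    simp
  · intro y hy
    simp only [hΦdef, hy]
    linarith
  · intro ε hε ρ hρ
    set μ := min ρ R with hμ
    have hμpos : 0 < μ := lt_min hρ hR
    set M := m - C + ε * (R ^ 2) ^ k with hM
    set τ := 1 + 8 * (κ + |M|) / ε + 2 * |Real.log μ| with hτ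
    have hτ1 : 1 ≤ τ := by
      have h1 : 0 ≤ 8 * (κ + |M|) / ε := by positivity
      have h2 : 0 ≤ 2 * |Real.log μ| := by positivity
      linarith
    have hτ0 : 0 ≤ τ := by linarith
    have hle : Real.exp (-τ / 2) ≤ μ := by
      have h2 : -τ / 2 ≤ Real.log μ := by
        have h3 : -|Real.log μ| ≤ Real.log μ := neg_abs_le _
        have h5 : 0 ≤ 8 * (κ + |M|) / ε := by positivity
        linarith
      calc Real.exp (-τ / 2) ≤ Real.exp (Real.log μ) := Real.exp_le_exp.mpr h2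
        _ = μ := Real.exp_log hμpos
    refine ⟨Real.exp (-τ / 2), Real.exp_pos _, le_trans hle (min_le_left _ _), ?_⟩
    intro y hy
    have hyR : ‖y‖ ≤ R := by
      rw [hy]; exact le_trans hle (min_le_right _ _)
    have hy0 : y ≠ 0 := by
      intro h0
      rw [h0, norm_zero] at hy
      exact absurd hy (Real.exp_pos _).ne
    have hC := hlow y hy0 hyR
    have hsq : ‖y‖ ^ 2 = Real.exp (-τ) := by
      rw [hy, ← Real.exp_nat_mul]
      congr 1
      push_cast
      ring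
    have hlog : Real.log (‖y‖ ^ 2) = -τ := by
      rw [hsq, Real.log_exp]
    have hpow : (‖y‖ ^ 2) ^ k = Real.exp (-τ * k) := by
      rw [hsq, Real.exp_mul]
    have hexp : τ ^ 2 / 8 ≤ Real.exp (-τ * k) := by
      have h1 : τ / 2 ≤ -τ * k := by nlinarith
      have h2 : Real.exp (τ / 2) ≤ Real.exp (-τ * k) := Real.exp_le_exp.mpr h1
      have h3 := Real.quadratic_le_exp_of_nonneg (x := τ / 2) (by linarith)
      nlinarith
    simp only [hΦdef, hpow]
    rw [hlog] at hC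
    have h4 : κ + |M| ≤ ε * τ / 8 := by
      have h5 : 8 * (κ + |M|) / ε ≤ τ := by
        have h2 : 0 ≤ 2 * |Real.log μ| := by positivity
        rw [hτ]; linarith
      have h6 := mul_le_mul_of_nonneg_left h5 hε.le
      rw [mul_div_cancel₀ _ hε.ne'] at h6
      linarith
    have h7 : M ≤ ε * Real.exp (-τ * k) - κ * τ := by
      have h8 : ε * (τ ^ 2 / 8) ≤ ε * Real.exp (-τ * k) :=
        mul_le_mul_of_nonneg_left hexp hε.le
      have h9 : |M| ≤ ε * (τ ^ 2 / 8) - κ * τ := by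
        have h10 : 0 ≤ |M| := abs_nonneg _
        nlinarith
      have h11 : M ≤ |M| := le_abs_self _
      linarith
    rw [hM] at h7
    linarith

end Vale.Agent.H27
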