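import Mathlib
import Vale.Agent.H27.MaxPrinciple
import Vale.Agent.H27.Radial
import Vale.Agent.H27.Compare
import Vale.Agent.H27.Punctured

/-!
# Positive functions with negative Laplacian off the origin: sphere minima and their monotonicity
-/

set_option autoImplicit false
set_option linter.unusedSectionVars false

open Filter Topology Laplacian Metric

namespace Vale.Agent.H27

variable {E : Type*} [NormedAddCommGroup E] [InnerProductSpace ℝ E] [FiniteDimensional ℝ E]

/-- `u` is positive, `C^2` and has negative Laplacian at every point other than the origin. -/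
def PosSuper (u : E → ℝ) : Prop :=
  ∀ x : E, x ≠ 0 → ContDiffAt ℝ 2 u x ∧ Δ u x < 0 ∧ 0 < u x

/-- The infimum of `u` over the sphere of radius `R` about the origin. -/
noncomputable def sphMin (u : E → ℝ) (R : ℝ) : ℝ := sInf (u '' sphere (0 : E) R)

theorem PosSuper.continuousAt {u : E → ℝ} (hu : PosSuper u) {x : E} (hx : x ≠ 0) :
    ContinuousAt u x := (hu x hx).1.continuousAt

theorem sphere_ne_zero {R : ℝ} (hR : 0 < R) {x : E} (hx : x ∈ sphere (0 : E) R) : x ≠ 0 := by
  intro h0
  rw [h0] at hx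
  simp at hx
  linarith

theorem exists_sphMin [Nontrivial E] {u : E → ℝ} (hu : PosSuper u) {R : ℝ} (hR : 0 < R) :
    ∃ x : E, ‖x‖ = R ∧ u x = sphMin u R ∧ ∀ y : E, ‖y‖ = R → u x ≤ u y := by
  have hcomp : IsCompact (sphere (0 : E) R) := isCompact_sphere 0 R
  have hne : (sphere (0 : E) R).Nonempty := NormedSpace.sphere_nonempty.mpr hR.le
  have hcont : ContinuousOn u (sphere (0 : E) R) := fun x hx =>
    (hu.continuousAt (sphere_ne_zero hR hx)).continuousWithinAt
  obtain ⟨x, hx, hmin⟩ := hcomp.exists_isMinOn hne hcont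
  have hxR : ‖x‖ = R := by simpa using hx
  have hle : ∀ y : E, ‖y‖ = R → u x ≤ u y := by
    intro y hy
    exact hmin (by simpa using hy)
  refine ⟨x, hxR, ?_, hle⟩
  unfold sphMin
  apply le_antisymm
  · apply le_csInf (hne.image u)
    rintro _ ⟨y, hy, rfl⟩
    exact hmin hy
  · apply csInf_le
    · refine ⟨u x, ?_⟩
      rintro _ ⟨y, hy, rfl⟩
      exact hmin hy
    · exact ⟨x, hx, rfl⟩

theorem sphMin_le [Nontrivial E] {u : E → ℝ} (hu : PosSuper u) {R : ℝ} (hR : 0 < R) {y : E}
    (hy : ‖y‖ = R) : sphMin u R ≤ u y := by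
  obtain ⟨x, _, hx2, hx3⟩ := exists_sphMin hu hR
  rw [← hx2]
  exact hx3 y hy

theorem sphMin_pos [Nontrivial E] {u : E → ℝ} (hu : PosSuper u) {R : ℝ} (hR : 0 < R) :
    0 < sphMin u R := by
  obtain ⟨x, hx1, hx2, _⟩ := exists_sphMin hu hR
  rw [← hx2]
  have hx0 : x ≠ 0 := by
    intro h0
    rw [h0, norm_zero] at hx1
    linarith
  exact (hu x hx0).2.2

/-- (F1) A positive strictly superharmonic function on the punctured space dominates, inside the
ball of radius `R`, its minimum on the sphere of radius `R` (dimension at least two). -/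
theorem PosSuper.ge_sphMin_inside [Nontrivial E] {u : E → ℝ} (hu : PosSuper u)
    (hd : 2 ≤ Module.finrank ℝ E) {R : ℝ} (hR : 0 < R) {x : E} (hx : x ≠ 0) (hxR : ‖x‖ ≤ R) :
    sphMin u R ≤ u x := by
  refine punctured_min_log (w := u) (R := R) (m := sphMin u R) (C := 0) hd hR
    (fun y hy => hu.continuousAt hy) (fun y hy _ => ⟨(hu y hy).1, (hu y hy).2.1⟩)
    (fun y hy _ => (hu y hy).2.2.le) (fun y hy => sphMin_le hu hR hy) x hx hxR

/-- (F3) Quantitative lower bound at the centre of a ball on which `-Δ u ≥ c > 0`. -/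
theorem center_lower_bound {u : E → ℝ} {x₀ : E} {ρ c : ℝ} (hdim : 0 < Module.finrank ℝ E)
    (hc : 0 < c) (hρ : 0 ≤ ρ)
    (hcont : ContinuousOn u (closedBall x₀ ρ))
    (hint : ∀ x : E, dist x x₀ < ρ → ContDiffAt ℝ 2 u x ∧ Δ u x ≤ -c)
    (hb : ∀ y : E, dist y x₀ = ρ → 0 ≤ u y) :
    c * ρ ^ 2 / (4 * (Module.finrank ℝ E : ℝ)) ≤ u x₀ := by
  have hd : (0 : ℝ) < (Module.finrank ℝ E : ℝ) := by exact_mod_cast hdim
  set a : ℝ := c / (4 * (Module.finrank ℝ E : ℝ)) with ha
  have hg : ∀ x : E, ContDiffAt ℝ 2 (fun y : E => ‖y - x₀‖ ^ 2) x := fun x =>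
    contDiffAt_radial_center (F := fun s : ℝ => s) x₀ contDiffAt_id
  have key := ball_compare (f := fun z : E => u z + (-(a * ρ ^ 2) + a * ‖z - x₀‖ ^ 2)) (x₀ := x₀)
    (ρ := ρ) (c := 0) ?_ ?_ ?_ x₀ ?_
  · simp only [sub_self, norm_zero] at key
    have h1 : a * ρ ^ 2 = c * ρ ^ 2 / (4 * (Module.finrank ℝ E : ℝ)) := by
      rw [ha]; ring
    rw [← h1]
    have : (0:ℝ) ^ 2 = 0 := by norm_num
    rw [this] at key
    linarith
  · have h1 : Continuous (fun z : E => -(a * ρ ^ 2) + a * ‖z - x₀‖ ^ 2) := by fun_prop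
    exact hcont.add h1.continuousOn
  · intro x hx
    obtain ⟨h2, hneg⟩ := hint x hx
    refine ⟨contDiffAt_add_affine _ _ h2 (hg x), ?_⟩
    rw [laplacian_add_affine _ _ h2 (hg x), laplacian_normSq_sub]
    have h3 : a * (2 * (Module.finrank ℝ E : ℝ)) = c / 2 := by
      rw [ha]; field_simp; ring
    rw [h3]
    linarith
  · intro y hy
    have h1 : ‖y - x₀‖ = ρ := by rw [← dist_eq_norm]; exact hy
    rw [h1]
    have := hb y hy
    linarith
  · simp only [dist_self]
    exact hρ

theorem sq_rpow_eq_exp {t : ℝ} (ht : 0 < t) (k : ℝ) :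
    (t ^ 2) ^ k = Real.exp (2 * k * Real.log t) := by
  rw [Real.rpow_def_of_pos (by positivity), Real.log_pow]
  congr 1
  push_cast
  ring

/-- (F2) A positive superharmonic function on the punctured space decays no faster than the
fundamental solution `‖x‖ ^ (2 - d)` (dimension at least three). -/
theorem PosSuper.ge_outside [Nontrivial E] {u : E → ℝ} (hu : PosSuper u)
    (hd : 3 ≤ Module.finrank ℝ E) {R : ℝ} (hR : 0 < R) {x : E} (hxR : R ≤ ‖x‖) :
    sphMin u R * Real.exp (-((Module.finrank ℝ E : ℝ) - 2) * (Real.log ‖x‖ - Real.log R))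
      ≤ u x := by
  set d : ℝ := (Module.finrank ℝ E : ℝ) with hdd
  have hd' : (3 : ℝ) ≤ d := by rw [hdd]; exact_mod_cast hd
  set k : ℝ := 1 - d / 2 with hk
  set m := sphMin u R with hm
  have hmpos : 0 < m := sphMin_pos hu hR
  have hxpos : 0 < ‖x‖ := lt_of_lt_of_le hR hxR
  have hx0 : x ≠ 0 := norm_pos_iff.mp hxpos
  have hRk : 0 < (R ^ 2) ^ k := Real.rpow_pos_of_pos (by positivity) k
  set c₂ : ℝ := -m / (R ^ 2) ^ k with hc₂
  -- main estimate with an `ε` of room
  have main : ∀ ε : ℝ, 0 < ε → 0 ≤ u x + (ε + c₂ * (‖x‖ ^ 2) ^ k) := by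
    intro ε hε
    set τ : ℝ := |Real.log m - Real.log ε| + |Real.log ‖x‖ - Real.log R| with hτ
    have hτ0 : 0 ≤ τ := by positivity
    set R' : ℝ := R * Real.exp τ with hR'
    have hR'pos : 0 < R' := by positivity
    have hxR' : ‖x‖ ≤ R' := by
      have h1 : Real.log ‖x‖ - Real.log R ≤ τ := by
        have := le_abs_self (Real.log ‖x‖ - Real.log R)
        have h2 : 0 ≤ |Real.log m - Real.log ε| := abs_nonneg _
        linarith
      have h2 : Real.log ‖x‖ ≤ Real.log R' := by
        rw [hR', Real.log_mul hR.ne' (Real.exp_pos _).ne', Real.log_exp]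
        linarith
      exact (Real.log_le_log_iff hxpos hR'pos).mp h2
    have hne : ∀ y : E, R ≤ ‖y‖ → y ≠ 0 := by
      intro y hy h0
      rw [h0, norm_zero] at hy
      linarith
    refine annulus_compare (f := fun z : E => u z + (ε + c₂ * (‖z‖ ^ 2) ^ k)) (r := R) (R := R')
      (c := 0) ?_ ?_ ?_ ?_ x hxR hxR'
    · intro y hy
      have hy0 := hne y hy.1
      exact (contDiffAt_add_affine ε c₂ (hu y hy0).1 (contDiffAt_normSq_rpow k hy0)).continuousAt.continuousWithinAt
    · intro y hy1 _
      have hy0 := hne y hy1.le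
      refine ⟨contDiffAt_add_affine ε c₂ (hu y hy0).1 (contDiffAt_normSq_rpow k hy0), ?_⟩
      rw [laplacian_add_affine ε c₂ (hu y hy0).1 (contDiffAt_normSq_rpow k hy0),
        laplacian_normSq_rpow k hy0]
      have h0 : 2 * k - 2 + (Module.finrank ℝ E : ℝ) = 0 := by rw [hk, hdd]; ring
      rw [h0]
      have := (hu y hy0).2.1
      simpa using this
    · intro y hy
      have h1 : m ≤ u y := sphMin_le hu hR hy
      have h2 : c₂ * (‖y‖ ^ 2) ^ k = -m := by
        rw [hy, hc₂]; field_simp
      rw [h2]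
      linarith
    · intro y hy
      have hy0 : y ≠ 0 := hne y (by rw [hy, hR']; nlinarith [Real.add_one_le_exp τ])
      have hupos := (hu y hy0).2.2
      have h2 : (‖y‖ ^ 2) ^ k = (R ^ 2) ^ k * Real.exp (2 * k * τ) := by
        rw [hy, sq_rpow_eq_exp hR'pos, sq_rpow_eq_exp hR, hR',
          Real.log_mul hR.ne' (Real.exp_pos _).ne', Real.log_exp, ← Real.exp_add]
        congr 1
        ring
      have h3 : c₂ * (‖y‖ ^ 2) ^ k = -m * Real.exp (2 * k * τ) := by
        rw [h2, hc₂]; field_simp
      rw [h3]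
      have h4 : m * Real.exp (2 * k * τ) ≤ ε := by
        have h5 : 2 * k * τ ≤ Real.log ε - Real.log m := by
          have h6 : 2 * k ≤ -1 := by rw [hk]; linarith
          have h7 : 2 * k * τ ≤ -τ := by nlinarith
          have h8 : Real.log m - Real.log ε ≤ τ := by
            have := le_abs_self (Real.log m - Real.log ε)
            have h9 : 0 ≤ |Real.log ‖x‖ - Real.log R| := abs_nonneg _
            linarith
          linarith
        have h6 : Real.exp (2 * k * τ) ≤ ε / m := by
          calc Real.exp (2 * k * τ) ≤ Real.exp (Real.log ε - Real.log m) := Real.exp_le_exp.mpr h5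
            _ = ε / m := by
              rw [Real.exp_sub, Real.exp_log hε, Real.exp_log hmpos]
        calc m * Real.exp (2 * k * τ) ≤ m * (ε / m) := mul_le_mul_of_nonneg_left h6 hmpos.le
          _ = ε := by field_simp
      linarith
  have h1 : c₂ * (‖x‖ ^ 2) ^ k
      = -(m * Real.exp (-(d - 2) * (Real.log ‖x‖ - Real.log R))) := by
    rw [hc₂, sq_rpow_eq_exp hxpos, sq_rpow_eq_exp hR]
    have h2 : Real.exp (-(d - 2) * (Real.log ‖x‖ - Real.log R))
        = Real.exp (2 * k * Real.log ‖x‖) / Real.exp (2 * k * Real.log R) := by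
      rw [← Real.exp_sub]
      congr 1
      rw [hk]; ring
    rw [h2]
    field_simp
  have h2 : ∀ ε : ℝ, 0 < ε →
      m * Real.exp (-(d - 2) * (Real.log ‖x‖ - Real.log R)) ≤ u x + ε * 1 := by
    intro ε hε
    have := main ε hε
    rw [h1] at this
    linarith
  exact le_of_forall_pos_le_add_mul h2

/-- In dimension two there is no positive function on the punctured plane with negative
Laplacian everywhere. -/
theorem PosSuper.false_of_dim_two [Nontrivial E] {u : E → ℝ} (hu : PosSuper u)
    (hd : Module.finrank ℝ E = 2) : False := by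
  have hd' : (Module.finrank ℝ E : ℝ) = 2 := by exact_mod_cast hd
  obtain ⟨x₀, hx₀, hx₀m, hx₀min⟩ := exists_sphMin hu (R := 1) one_pos
  set m := sphMin u 1 with hm
  have hmpos : 0 < m := sphMin_pos hu one_pos
  have hx₀0 : x₀ ≠ 0 := by
    intro h0
    rw [h0, norm_zero] at hx₀
    exact zero_ne_one hx₀
  have hglobal : ∀ y : E, y ≠ 0 → m ≤ u y := by
    intro y hy
    by_cases hy1 : ‖y‖ ≤ 1
    · exact hu.ge_sphMin_inside (by rw [hd]) one_pos hy hy1
    · have hy1' : 1 < ‖y‖ := not_le.mp hy1
      have hlogy : 0 < Real.log ‖y‖ := Real.log_pos hy1'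
      apply le_of_forall_pos_le_add_mul (b := m)
      intro ε hε
      set τ : ℝ := Real.log ‖y‖ / ε + Real.log ‖y‖ + 1 with hτ
      have hτpos : 0 < τ := by positivity
      set R' : ℝ := Real.exp τ with hR'
      have hyR' : ‖y‖ ≤ R' := by
        have h1 : Real.log ‖y‖ ≤ Real.log R' := by
          rw [hR', Real.log_exp]
          have : 0 ≤ Real.log ‖y‖ / ε := by positivity
          linarith
        exact (Real.log_le_log_iff (by linarith) (Real.exp_pos _)).mp h1
      set c₂ : ℝ := m / (2 * τ) with hc₂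
      have hne : ∀ z : E, 1 ≤ ‖z‖ → z ≠ 0 := by
        intro z hz h0
        rw [h0, norm_zero] at hz
        linarith
      have key := annulus_compare (f := fun z : E => u z + (-m + c₂ * Real.log (‖z‖ ^ 2)))
        (r := 1) (R := R') (c := 0) ?_ ?_ ?_ ?_ y hy1'.le hyR'
      · have h1 : c₂ * Real.log (‖y‖ ^ 2) ≤ ε * m := by
          rw [hc₂, Real.log_pow]
          push_cast
          have h2 : Real.log ‖y‖ ≤ ε * τ := by
            have h3 : Real.log ‖y‖ / ε ≤ τ := by rw [hτ]; linarith
            have h4 := mul_le_mul_of_nonneg_left h3 hε.le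
            rwa [mul_div_cancel₀ _ hε.ne'] at h4
          have h5 : m / (2 * τ) * (2 * Real.log ‖y‖) = m * (Real.log ‖y‖ / τ) := by
            field_simp
          rw [h5]
          have h6 : Real.log ‖y‖ / τ ≤ ε := by
            rw [div_le_iff₀ hτpos]; exact h2
          nlinarith
        linarith
      · intro z hz
        have hz0 := hne z hz.1
        exact (contDiffAt_add_affine (-m) c₂ (hu z hz0).1
          (contDiffAt_log_normSq hz0)).continuousAt.continuousWithinAt
      · intro z hz1 _
        have hz0 := hne z hz1.le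
        refine ⟨contDiffAt_add_affine (-m) c₂ (hu z hz0).1 (contDiffAt_log_normSq hz0), ?_⟩
        rw [laplacian_add_affine (-m) c₂ (hu z hz0).1 (contDiffAt_log_normSq hz0),
          laplacian_log_normSq hz0, hd']
        have := (hu z hz0).2.1
        norm_num
        exact this
      · intro z hz
        have h1 : m ≤ u z := sphMin_le hu one_pos hz
        rw [hz]
        simp
        linarith
      · intro z hz
        have hz0 : z ≠ 0 := by
          intro h0
          rw [h0, norm_zero] at hz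
          exact absurd hz.symm (Real.exp_pos _).ne'
        have hupos := (hu z hz0).2.2
        have h1 : c₂ * Real.log (‖z‖ ^ 2) = m := by
          rw [hz, hR', Real.log_pow, Real.log_exp, hc₂]
          push_cast
          field_simp
        rw [h1]
        linarith
  have hloc : IsLocalMin u x₀ := by
    have hopen : {z : E | z ≠ 0} ∈ 𝓝 x₀ := isOpen_ne.mem_nhds hx₀0
    filter_upwards [hopen] with z hz
    rw [hx₀m]
    exact hglobal z hz
  have h1 := laplacian_nonneg_of_isLocalMin (hu x₀ hx₀0).1 hloc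
  have h2 := (hu x₀ hx₀0).2.1
  linarith

end Vale.Agent.H27
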