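import Mathlib
import Vale.Agent.H27.MaxPrinciple
import Vale.Agent.H27.Radial
import Vale.Agent.H27.Compare
import Vale.Agent.H27.Punctured
import Vale.Agent.H27.Super

/-!
# Liouville theorems for Henon-Lane-Emden type systems of differential inequalities
-/

set_option autoImplicit false
set_option linter.unusedSectionVars false

open Filter Topology Laplacian Metric

namespace Vale.Agent.H27

variable {E : Type*} [NormedAddCommGroup E] [InnerProductSpace ℝ E] [FiniteDimensional ℝ E]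

/-- (F1), logarithmic form: sphere minima are nonincreasing in the radius. -/
theorem PosSuper.log_sphMin_anti [Nontrivial E] {u : E → ℝ} (hu : PosSuper u)
    (hd : 2 ≤ Module.finrank ℝ E) {R₁ R₂ : ℝ} (hR₁ : 0 < R₁) (h12 : R₁ ≤ R₂) :
    Real.log (sphMin u R₂) ≤ Real.log (sphMin u R₁) := by
  have hR₂ : 0 < R₂ := lt_of_lt_of_le hR₁ h12
  obtain ⟨x, hx1, hx2, _⟩ := exists_sphMin hu hR₁
  have hx0 : x ≠ 0 := by
    intro h0
    rw [h0, norm_zero] at hx1
    linarith
  have h1 : sphMin u R₂ ≤ u x := hu.ge_sphMin_inside hd hR₂ hx0 (by rw [hx1]; exact h12)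
  rw [hx2] at h1
  exact Real.log_le_log (sphMin_pos hu hR₂) h1

/-- (F2), logarithmic form. -/
theorem PosSuper.log_sphMin_decay [Nontrivial E] {u : E → ℝ} (hu : PosSuper u)
    (hd : 3 ≤ Module.finrank ℝ E) {R₁ R₂ : ℝ} (hR₁ : 0 < R₁) (h12 : R₁ ≤ R₂) :
    Real.log (sphMin u R₁) - ((Module.finrank ℝ E : ℝ) - 2) * (Real.log R₂ - Real.log R₁)
      ≤ Real.log (sphMin u R₂) := by
  have hR₂ : 0 < R₂ := lt_of_lt_of_le hR₁ h12
  obtain ⟨x, hx1, hx2, _⟩ := exists_sphMin hu hR₂
  have h1 := hu.ge_outside hd hR₁ (x := x) (by rw [hx1]; exact h12)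
  rw [hx1, hx2] at h1
  have hpos : 0 < sphMin u R₁ := sphMin_pos hu hR₁
  have h2 := Real.log_le_log (by positivity) h1
  rw [Real.log_mul hpos.ne' (Real.exp_pos _).ne', Real.log_exp] at h2
  linarith

/-- (S1) One step of the feedback estimate, logarithmic form: if `-Δ u ≥ ‖x‖ ^ A * v ^ p` then
the sphere minimum of `u` at radius `2R` is controlled from below by that of `v` at radius `3R`. -/
theorem feedback_step [Nontrivial E] {u v : E → ℝ} {p A : ℝ}
    (hd : 2 ≤ Module.finrank ℝ E) (hp : 0 ≤ p) (hu : PosSuper u) (hv : PosSuper v)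
    (hineq : ∀ x : E, x ≠ 0 → Δ u x ≤ -(‖x‖ ^ A * v x ^ p)) {R : ℝ} (hR : 0 < R) :
    Real.log (min 1 ((3 : ℝ) ^ A) / (4 * (Module.finrank ℝ E : ℝ))) + (A + 2) * Real.log R
        + p * Real.log (sphMin v (3 * R))
      ≤ Real.log (sphMin u (2 * R)) := by
  have hdpos : 0 < Module.finrank ℝ E := by omega
  have hd' : (0 : ℝ) < (Module.finrank ℝ E : ℝ) := by exact_mod_cast hdpos
  obtain ⟨x₀, hx₀, hx₀m, _⟩ := exists_sphMin hu (R := 2 * R) (by positivity)
  set mv := sphMin v (3 * R) with hmv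
  have hmvpos : 0 < mv := sphMin_pos hv (by positivity)
  set cA : ℝ := min 1 ((3 : ℝ) ^ A) with hcA
  have hcApos : 0 < cA := lt_min one_pos (Real.rpow_pos_of_pos (by norm_num) A)
  set c : ℝ := cA * R ^ A * mv ^ p with hc
  have hRA : 0 < R ^ A := Real.rpow_pos_of_pos hR A
  have hmvp : 0 < mv ^ p := Real.rpow_pos_of_pos hmvpos p
  have hcpos : 0 < c := by positivity
  -- geometry of the ball `B(x₀, R)`
  have hgeo : ∀ y : E, dist y x₀ ≤ R → R ≤ ‖y‖ ∧ ‖y‖ ≤ 3 * R := by
    intro y hy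
    rw [dist_eq_norm] at hy
    have h1 : ‖x₀‖ ≤ ‖y‖ + ‖y - x₀‖ := by
      have := norm_sub_le y (y - x₀)
      simpa using this
    have h2 : ‖y‖ ≤ ‖x₀‖ + ‖y - x₀‖ := by
      have := norm_add_le x₀ (y - x₀)
      simpa using this
    constructor <;> linarith
  have hne : ∀ y : E, dist y x₀ ≤ R → y ≠ 0 := by
    intro y hy h0
    have := (hgeo y hy).1
    rw [h0, norm_zero] at this
    linarith
  have key := center_lower_bound (u := u) (x₀ := x₀) (ρ := R) (c := c) hdpos hcpos hR.le ?_ ?_ ?_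
  · rw [hx₀m] at key
    have h1 : c * R ^ 2 / (4 * (Module.finrank ℝ E : ℝ))
        = cA / (4 * (Module.finrank ℝ E : ℝ)) * R ^ A * R ^ 2 * mv ^ p := by
      rw [hc]; field_simp
    rw [h1] at key
    have hpos1 : 0 < cA / (4 * (Module.finrank ℝ E : ℝ)) := by positivity
    have h2 := Real.log_le_log (by positivity) key
    rw [Real.log_mul (by positivity) hmvp.ne', Real.log_mul (by positivity) (by positivity),
      Real.log_mul hpos1.ne' hRA.ne', Real.log_rpow hR, Real.log_pow, Real.log_rpow hmvpos] at h2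
    push_cast at h2
    linarith
  · intro y hy
    exact (hu.continuousAt (hne y (mem_closedBall.mp hy))).continuousWithinAt
  · intro y hy
    have hy0 := hne y hy.le
    refine ⟨(hu y hy0).1, ?_⟩
    have h1 := hineq y hy0
    obtain ⟨hg1, hg2⟩ := hgeo y hy.le
    have hypos : 0 < ‖y‖ := lt_of_lt_of_le hR hg1
    -- weight estimate
    have hw : cA * R ^ A ≤ ‖y‖ ^ A := by
      have ht1 : 1 ≤ ‖y‖ / R := by rw [le_div_iff₀ hR]; linarith
      have ht3 : ‖y‖ / R ≤ 3 := by rw [div_le_iff₀ hR]; linarith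
      have htpos : 0 < ‖y‖ / R := by positivity
      have hsplit : ‖y‖ ^ A = (‖y‖ / R) ^ A * R ^ A := by
        rw [← Real.mul_rpow htpos.le hR.le]
        congr 1
        field_simp
      rw [hsplit]
      apply mul_le_mul_of_nonneg_right _ hRA.le
      by_cases hA0 : 0 ≤ A
      · exact le_trans (min_le_left _ _) (Real.one_le_rpow ht1 hA0)
      · have hA0' : A ≤ 0 := (not_le.mp hA0).le
        exact le_trans (min_le_right _ _) (Real.rpow_le_rpow_of_nonpos htpos ht3 hA0')
    -- value estimate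
    have hvy : mv ≤ v y := hv.ge_sphMin_inside hd (by positivity) hy0 hg2
    have hvp : mv ^ p ≤ v y ^ p := Real.rpow_le_rpow hmvpos.le hvy hp
    have hprod : c ≤ ‖y‖ ^ A * v y ^ p := by
      rw [hc]
      exact mul_le_mul hw hvp hmvp.le (Real.rpow_pos_of_pos hypos A).le
    linarith
  · intro y hy
    exact (hu y (hne y hy.le)).2.2.le

/-- Liouville theorem in the supersolution range (dimension at least three, weights `> -2`). -/
theorem no_pair_main [Nontrivial E] {u v : E → ℝ} {p q A B : ℝ}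
    (hd : 3 ≤ Module.finrank ℝ E) (hp : 0 < p) (hq : 0 < q) (hA : -2 < A) (hB : -2 < B)
    (hu : PosSuper u) (hv : PosSuper v)
    (hu_ineq : ∀ x : E, x ≠ 0 → Δ u x ≤ -(‖x‖ ^ A * v x ^ p))
    (hv_ineq : ∀ x : E, x ≠ 0 → Δ v x ≤ -(‖x‖ ^ B * u x ^ q))
    (hcond : ((Module.finrank ℝ E : ℝ) - 2) * (p * q - 1) < 2 + A + p * (2 + B)) : False := by
  set d : ℝ := (Module.finrank ℝ E : ℝ) with hdd
  have hd3 : (3 : ℝ) ≤ d := by rw [hdd]; exact_mod_cast hd
  have hd2 : 2 ≤ Module.finrank ℝ E := by omega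
  set κA : ℝ := Real.log (min 1 ((3 : ℝ) ^ A) / (4 * d)) with hκA
  set κB : ℝ := Real.log (min 1 ((3 : ℝ) ^ B) / (4 * d)) with hκB
  set a2 : ℝ := Real.log (sphMin u 2) with ha2
  set γ : ℝ := 2 + A + p * (2 + B) with hγ
  have hγpos : 0 < γ := by
    have : 0 < p * (2 + B) := mul_pos hp (by linarith)
    rw [hγ]; linarith
  set K₀ : ℝ := κA + p * κB + p * (B + 2) * Real.log (3 / 2) - p * q * (d - 2) * Real.log (9 / 4)
    with hK₀
  -- the key inequality for every `L ≥ 0`
  have key : ∀ L : ℝ, 0 ≤ L →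
      ∃ a : ℝ, K₀ + γ * L + p * q * a ≤ a ∧ a ≤ a2 ∧ a2 - (d - 2) * L ≤ a := by
    intro L hL
    set R : ℝ := Real.exp L with hR
    have hRpos : 0 < R := Real.exp_pos L
    have hR1 : 1 ≤ R := by rw [hR]; exact Real.one_le_exp hL
    have hlogR : Real.log R = L := by rw [hR, Real.log_exp]
    refine ⟨Real.log (sphMin u (2 * R)), ?_, ?_, ?_⟩
    · -- chain of three estimates
      have s1 := feedback_step (u := u) (v := v) (p := p) (A := A) hd2 hp.le hu hv hu_ineq hRpos
      have s2 := feedback_step (u := v) (v := u) (p := q) (A := B) hd2 hq.le hv hu hv_ineq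
        (R := 3 / 2 * R) (by positivity)
      have e1 : 2 * (3 / 2 * R) = 3 * R := by ring
      have e2 : 3 * (3 / 2 * R) = 9 / 2 * R := by ring
      rw [e1, e2] at s2
      have s3 := hu.log_sphMin_decay hd (R₁ := 2 * R) (R₂ := 9 / 2 * R) (by positivity)
        (by linarith)
      have l1 : Real.log (3 / 2 * R) = Real.log (3 / 2) + L := by
        rw [Real.log_mul (by norm_num) hRpos.ne', hlogR]
      have l2 : Real.log (9 / 2 * R) - Real.log (2 * R) = Real.log (9 / 4) := by
        rw [← Real.log_div (by positivity) (by positivity)]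
        congr 1
        field_simp
        norm_num
      rw [← hdd] at s1 s2 s3
      rw [l1] at s2
      rw [l2] at s3
      rw [hlogR] at s1
      -- combine
      have hpq : 0 < p * q := mul_pos hp hq
      have t2 : p * (κB + (B + 2) * (Real.log (3 / 2) + L)
          + q * Real.log (sphMin u (9 / 2 * R))) ≤ p * Real.log (sphMin v (3 * R)) :=
        mul_le_mul_of_nonneg_left s2 hp.le
      have t3 : p * q * (Real.log (sphMin u (2 * R)) - (d - 2) * Real.log (9 / 4))
          ≤ p * q * Real.log (sphMin u (9 / 2 * R)) :=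
        mul_le_mul_of_nonneg_left s3 hpq.le
      rw [hK₀, hγ]
      nlinarith [t2, t3, s1]
    · have := hu.log_sphMin_anti hd2 (R₁ := 2) (R₂ := 2 * R) (by norm_num) (by linarith)
      exact this
    · have h1 := hu.log_sphMin_decay hd (R₁ := 2) (R₂ := 2 * R) (by norm_num) (by linarith)
      have l3 : Real.log (2 * R) - Real.log 2 = L := by
        rw [Real.log_mul (by norm_num) hRpos.ne', hlogR]; ring
      rw [l3] at h1
      exact h1
  by_cases hpq1 : p * q ≤ 1
  · -- case `pq ≤ 1`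
    set L : ℝ := (|(1 - p * q) * a2 - K₀| + 1) / γ with hL
    have hL0 : 0 ≤ L := by positivity
    obtain ⟨a, h1, h2, _⟩ := key L hL0
    have h3 : γ * L = |(1 - p * q) * a2 - K₀| + 1 := by
      rw [hL]; field_simp
    have h4 : (1 - p * q) * a ≤ (1 - p * q) * a2 :=
      mul_le_mul_of_nonneg_left h2 (by linarith)
    have h5 := le_abs_self ((1 - p * q) * a2 - K₀)
    nlinarith
  · -- case `pq > 1`
    have hpq1' : 1 < p * q := not_le.mp hpq1
    set S : ℝ := γ - (d - 2) * (p * q - 1) with hS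
    have hSpos : 0 < S := by rw [hS]; linarith
    set L : ℝ := (|-K₀ - (p * q - 1) * a2| + 1) / S with hL
    have hL0 : 0 ≤ L := by positivity
    obtain ⟨a, h1, _, h3⟩ := key L hL0
    have h4 : S * L = |-K₀ - (p * q - 1) * a2| + 1 := by
      rw [hL]; field_simp
    have h5 : (p * q - 1) * (a2 - (d - 2) * L) ≤ (p * q - 1) * a :=
      mul_le_mul_of_nonneg_left h3 (by linarith)
    have h6 := le_abs_self (-K₀ - (p * q - 1) * a2)
    have h7 : S * L = γ * L - (d - 2) * (p * q - 1) * L := by rw [hS]; ring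
    nlinarith

/-- No solutions when the weight exponent is at most `-2` (dimension at least three): `u` would
have to blow up logarithmically at the origin. -/
theorem no_pair_singular_weight [Nontrivial E] {u v : E → ℝ} {p A : ℝ}
    (hd : 3 ≤ Module.finrank ℝ E) (hp : 0 ≤ p) (hA : A ≤ -2)
    (hu : PosSuper u) (hv : PosSuper v) (hu0 : ContinuousAt u 0)
    (hu_ineq : ∀ x : E, x ≠ 0 → Δ u x ≤ -(‖x‖ ^ A * v x ^ p)) : False := by
  set d : ℝ := (Module.finrank ℝ E : ℝ) with hdd
  have hd3 : (3 : ℝ) ≤ d := by rw [hdd]; exact_mod_cast hd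
  have hd2 : 2 ≤ Module.finrank ℝ E := by omega
  set c₀ : ℝ := sphMin v 1 with hc₀
  have hc₀pos : 0 < c₀ := sphMin_pos hv one_pos
  set cp : ℝ := c₀ ^ p with hcp
  have hcppos : 0 < cp := Real.rpow_pos_of_pos hc₀pos p
  set κ : ℝ := cp / (4 * (d - 2)) with hκ
  have hκpos : 0 < κ := by
    have : 0 < d - 2 := by linarith
    positivity
  -- the auxiliary function `w = u + κ log ‖x‖²` is nonnegative on the punctured unit ball
  have hw : ∀ x : E, x ≠ 0 → ‖x‖ ≤ 1 → 0 ≤ u x + (0 + κ * Real.log (‖x‖ ^ 2)) := by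
    refine punctured_min_pow (w := fun z : E => u z + (0 + κ * Real.log (‖z‖ ^ 2))) (R := 1)
      (m := 0) (C := 0) (κ := κ) hd one_pos hκpos.le ?_ ?_ ?_ ?_
    · intro y hy
      exact (contDiffAt_add_affine 0 κ (hu y hy).1 (contDiffAt_log_normSq hy)).continuousAt
    · intro y hy hy1
      refine ⟨contDiffAt_add_affine 0 κ (hu y hy).1 (contDiffAt_log_normSq hy), ?_⟩
      rw [laplacian_add_affine 0 κ (hu y hy).1 (contDiffAt_log_normSq hy),
        laplacian_log_normSq hy, ← hdd]
      have hypos : 0 < ‖y‖ := norm_pos_iff.mpr hy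
      have hsq : 0 < ‖y‖ ^ 2 := by positivity
      have h1 := hu_ineq y hy
      -- weight estimate
      have hwt : (‖y‖ ^ 2)⁻¹ ≤ ‖y‖ ^ A := by
        have h2 : ‖y‖ ^ (-2 : ℝ) ≤ ‖y‖ ^ A :=
          Real.rpow_le_rpow_of_exponent_ge hypos hy1.le hA
        have h3 : ‖y‖ ^ (-2 : ℝ) = (‖y‖ ^ 2)⁻¹ := by
          rw [Real.rpow_neg hypos.le, Real.rpow_two]
        rwa [h3] at h2
      have hvy : c₀ ≤ v y := hv.ge_sphMin_inside hd2 one_pos hy hy1.le
      have hvp : cp ≤ v y ^ p := Real.rpow_le_rpow hc₀pos.le hvy hp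
      have hprod : (‖y‖ ^ 2)⁻¹ * cp ≤ ‖y‖ ^ A * v y ^ p :=
        mul_le_mul hwt hvp hcppos.le (Real.rpow_pos_of_pos hypos A).le
      have h4 : κ * ((2 * d - 4) / ‖y‖ ^ 2) = (‖y‖ ^ 2)⁻¹ * cp / 2 := by
        rw [hκ]
        have : d - 2 ≠ 0 := by linarith
        field_simp
        ring
      rw [h4]
      have h5 : 0 < (‖y‖ ^ 2)⁻¹ * cp := by positivity
      linarith
    · intro y hy _
      have := (hu y hy).2.2
      simp only [zero_add]
      linarith
    · intro y hy
      have hy0 : y ≠ 0 := by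
        intro h0
        rw [h0, norm_zero] at hy
        exact zero_ne_one hy
      have := (hu y hy0).2.2
      rw [hy]
      simp
      linarith
  -- `u` is bounded near the origin
  have hbdd : ∀ᶠ x in 𝓝 (0 : E), u x < u 0 + 1 :=
    hu0.eventually (gt_mem_nhds (by linarith))
  obtain ⟨δ, hδpos, hδ⟩ := Metric.eventually_nhds_iff.mp hbdd
  set τ : ℝ := (|u 0| + 2) / κ + 2 * |Real.log δ| + 1 with hτ
  have hτpos : 0 < τ := by positivity
  obtain ⟨x, hx⟩ := exists_norm_eq E (c := Real.exp (-τ / 2)) (Real.exp_pos _).le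
  have hx0 : x ≠ 0 := by
    intro h0
    rw [h0, norm_zero] at hx
    exact absurd hx (Real.exp_pos _).ne
  have hx1 : ‖x‖ ≤ 1 := by
    rw [hx]
    apply Real.exp_le_one_iff.mpr
    linarith
  have hxδ : dist x 0 < δ := by
    rw [dist_zero_right, hx]
    have h1 : -τ / 2 < Real.log δ := by
      have h2 : -|Real.log δ| ≤ Real.log δ := neg_abs_le _
      have h3 : 0 ≤ (|u 0| + 2) / κ := by positivity
      rw [hτ]; linarith
    calc Real.exp (-τ / 2) < Real.exp (Real.log δ) := Real.exp_lt_exp.mpr h1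
      _ = δ := Real.exp_log hδpos
  have hux : u x < u 0 + 1 := hδ hxδ
  have hlog : Real.log (‖x‖ ^ 2) = -τ := by
    rw [hx, Real.log_pow, Real.log_exp]
    push_cast
    ring
  have h1 := hw x hx0 hx1
  rw [hlog] at h1
  have h2 : |u 0| + 2 ≤ κ * τ := by
    have h3 : (|u 0| + 2) / κ ≤ τ := by
      have h4 : 0 ≤ 2 * |Real.log δ| := by positivity
      rw [hτ]; linarith
    have h5 := mul_le_mul_of_nonneg_left h3 hκpos.le
    rwa [mul_div_cancel₀ _ hκpos.ne'] at h5
  have h3 := le_abs_self (u 0)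
  linarith

end Vale.Agent.H27
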